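import Vale.Agent.P032.H416.Top5

/-!
# P032: the statement from block X without covering pairs

`NoCov T` : two points at distance one with at least four colours have a colour in neither palette.
`XCov` : block X with the additional hypothesis `NoCov T`.
`exists_pair_cover` : from `XCov` alone: every maximal family of six open sets without unit distances
and with dense union has
(a) a unit pair of a point near which no four of the sets suffice and a point near which no three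
suffice, or
(b) a unit pair of two points near which four of the sets suffice, no three of them suffice, such
that the two quadruples together are all six indices, or
(c) complementary triples of indices at two points of the unit circle about a point near which four
of the sets suffice.
`exists_pair_cover'` : without (c), from `XCov` and `NoCompCov`.
-/

open Set Filter Topology Metric

noncomputable section

namespace Vale.Agent.P032.Six

open Vale.Agent.P032.S5.H843 Vale.Agent.P032.S5.H926 Vale.Agent.P032.Words6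
  Vale.Agent.P032.S5.H138

/-- transfer of the sets `closure ((⋃ j, U j) \ ⋃ i ∈ s, U i)` -/
theorem hcdf6 {U : Fin 6 → Set (EuclideanSpace ℝ (Fin 2))} (φ : ℂ ≃ₗᵢ[ℝ] EuclideanSpace ℝ (Fin 2))
    (s : Set (Fin 6)) (z : ℂ) :
    z ∈ closure ((⋃ j, φ ⁻¹' U j) \ ⋃ i ∈ s, φ ⁻¹' U i) ↔
      φ z ∈ closure ((⋃ j, U j) \ ⋃ i ∈ s, U i) := by
  have hdf : ((⋃ j, φ ⁻¹' U j) \ ⋃ i ∈ s, φ ⁻¹' U i) =
      φ ⁻¹' ((⋃ j, U j) \ ⋃ i ∈ s, U i) := by
    rw [preimage_sdiff, preimage_iUnion, preimage_iUnion₂]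
  have hcl : closure (φ ⁻¹' ((⋃ j, U j) \ ⋃ i ∈ s, U i)) =
      φ ⁻¹' closure ((⋃ j, U j) \ ⋃ i ∈ s, U i) := (φ.toHomeomorph.preimage_closure _).symm
  rw [hdf, hcl]
  rfl

theorem MSU6 {U : Fin 6 → Set (EuclideanSpace ℝ (Fin 2))} (φ : ℂ ≃ₗᵢ[ℝ] EuclideanSpace ℝ (Fin 2))
    {S : Set (Fin 6)} {z : ℂ} (h : MSU (fun i => φ ⁻¹' U i) S z) : MSU U S (φ z) := by
  obtain ⟨h1, h2, h3⟩ := h
  exact ⟨h1, fun h4 => h2 ((hcdf6 φ S z).2 h4), fun s hs => (hcdf6 φ s z).1 (h3 s hs)⟩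

/-- not opposite, in terms of distances -/
theorem opp_of_dist {z v q : ℂ} (hv : dist v z = 1) (hq : dist q z = 1) (h : dist v q = 2) :
    v + q = 2 * z := by
  have h7 : ‖(v - z) + (-(q - z))‖ = ‖v - z‖ + ‖-(q - z)‖ := by
    rw [← sub_eq_add_neg, norm_neg, sub_sub_sub_cancel_right, ← dist_eq_norm, ← dist_eq_norm,
      ← dist_eq_norm, h, hv, hq]
    norm_num
  have h9 : SameRay ℝ (v - z) (-(q - z)) := sameRay_iff_norm_add.2 h7
  have h10 : v - z = -(q - z) := by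
    refine (h9.norm_eq_iff).1 ?_
    rw [norm_neg, ← dist_eq_norm, ← dist_eq_norm, hv, hq]
  linear_combination h10

/-- the frame of a maximal family without (a) -/
theorem exists_frame6 {U : Fin 6 → Set (EuclideanSpace ℝ (Fin 2))}
    (hU : ∀ i, Maximal (fun W : Set (EuclideanSpace ℝ (Fin 2)) =>
      IsOpen W ∧ ∀ x ∈ W, ∀ y ∈ W, dist x y ≠ 1) (U i))
    (hd : Dense (⋃ i, U i)) (hcon : ∀ z z', dist z z' = 1 → z ∈ XU U 4 → z' ∉ XU U 3) :
    ∃ (φ : ℂ ≃ₗᵢ[ℝ] EuclideanSpace ℝ (Fin 2)) (T : ℂ → Set (Fin 6)),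
      Irr (fun i => φ ⁻¹' U i) T ∧ Mn (fun i => φ ⁻¹' U i) T ∧ NoPair5 T ∧
      (∀ z, (T z).ncard = 4 → MSU U (T z) (φ z)) ∧ ∀ z, SufU U (T z) (φ z) := by
  let φ : ℂ ≃ₗᵢ[ℝ] EuclideanSpace ℝ (Fin 2) := Complex.orthonormalBasisOneI.repr
  have hX : ∀ n z, z ∈ XU (fun i => φ ⁻¹' U i) n → φ z ∈ XU U n := by
    intro n z hz s hs
    exact (hcdf6 φ s z).1 (hz s hs)
  have hd' : Dense (⋃ i, φ ⁻¹' U i) := by
    rw [← preimage_iUnion]
    exact hd.preimage φ.toHomeomorph.isOpenMap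
  obtain ⟨T, h1, h2, h3⟩ := exists_T_pair5 (U := fun i => φ ⁻¹' U i)
    (fun i => maximal_preimage (hU i) φ) hd' fun z hz v hv hzv =>
      hcon (φ z) (φ v) (by rw [φ.dist_map]; exact hzv) (hX 4 z hz) (hX 3 v hv)
  exact ⟨φ, T, h1, h2, h3, fun z hz => MSU6 φ (MSU_of_frame h1 h2 hd' hz),
    fun z hz => Irr_suff h1 z ((hcdf6 φ _ z).2 hz)⟩

/-- no covering pairs in the frame -/
theorem noCov_of {U : Fin 6 → Set (EuclideanSpace ℝ (Fin 2))}
    {φ : ℂ ≃ₗᵢ[ℝ] EuclideanSpace ℝ (Fin 2)} {T : ℂ → Set (Fin 6)} (h3 : NoPair5 T)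
    (hM : ∀ z, (T z).ncard = 4 → MSU U (T z) (φ z))
    (hcon : ¬ ∃ z z', ∃ S S' : Set (Fin 6), dist z z' = 1 ∧ MSU U S z ∧ MSU U S' z' ∧
      S ∪ S' = univ) : NoCov T := by
  intro z y hzy hz hy
  have hz4 : (T z).ncard = 4 := by
    by_contra h
    exact h3 z y hzy (by omega) hy
  have hy4 : (T y).ncard = 4 := by
    by_contra h
    exact h3 y z (by rw [dist_comm]; exact hzy) (by omega) hz
  by_contra hne
  push Not at hne
  refine hcon ⟨φ z, φ y, T z, T y, by rw [φ.dist_map]; exact hzy, hM z hz4, hM y hy4, ?_⟩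
  refine eq_univ_of_forall fun i => ?_
  by_cases h : i ∈ T z
  · exact Or.inl h
  · exact Or.inr (hne i h)

/-- no complementary palettes in the frame -/
theorem noComp_of {U : Fin 6 → Set (EuclideanSpace ℝ (Fin 2))}
    {φ : ℂ ≃ₗᵢ[ℝ] EuclideanSpace ℝ (Fin 2)} {T : ℂ → Set (Fin 6)}
    (hM : ∀ z, (T z).ncard = 4 → MSU U (T z) (φ z)) (hs : ∀ z, SufU U (T z) (φ z))
    (hcon : ¬ ∃ z v q, ∃ S X : Set (Fin 6), MSU U S z ∧ X.ncard = 3 ∧ dist v z = 1 ∧
      dist q z = 1 ∧ v ≠ q ∧ dist v q < 2 ∧ SufU U X v ∧ SufU U Xᶜ q) : NoComp T := by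
  intro z h4 v q hv hq hv3 hq3
  by_contra hne
  have hvq : v ≠ q := by
    intro hvq
    rw [← hvq] at hq3
    obtain ⟨i, hi⟩ := Set.nonempty_of_ncard_ne_zero (by rw [hv3]; norm_num : (T v).ncard ≠ 0)
    have h5 : i ∈ (T v)ᶜ := hq3 ▸ hi
    exact h5 hi
  have hlt : dist v q < 2 := by
    have h5 : dist v q ≤ 2 := by
      have := dist_triangle_right v q z
      linarith
    exact lt_of_le_of_ne h5 fun h6 => hne (opp_of_dist hv hq h6)
  exact hcon ⟨φ z, φ v, φ q, T z, T v, hM z h4, hv3,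
    by rw [φ.dist_map]; exact hv, by rw [φ.dist_map]; exact hq, φ.injective.ne hvq,
    by rw [φ.dist_map]; exact hlt, hs v, hq3 ▸ hs q⟩

/-- **Statement in the plane**, from block X without covering pairs. -/
theorem exists_pair_cover (HX : XCov) {U : Fin 6 → Set (EuclideanSpace ℝ (Fin 2))}
    (hU : ∀ i, Maximal (fun W : Set (EuclideanSpace ℝ (Fin 2)) =>
      IsOpen W ∧ ∀ x ∈ W, ∀ y ∈ W, dist x y ≠ 1) (U i))
    (hd : Dense (⋃ i, U i)) :
    (∃ z z', dist z z' = 1 ∧ z ∈ XU U 4 ∧ z' ∈ XU U 3) ∨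
      (∃ z z', ∃ S S' : Set (Fin 6), dist z z' = 1 ∧ MSU U S z ∧ MSU U S' z' ∧ S ∪ S' = univ) ∨
      ∃ z v q, ∃ S X : Set (Fin 6), MSU U S z ∧ X.ncard = 3 ∧ dist v z = 1 ∧ dist q z = 1 ∧
        v ≠ q ∧ dist v q < 2 ∧ SufU U X v ∧ SufU U Xᶜ q := by
  by_contra hcon
  rw [not_or, not_or] at hcon
  obtain ⟨hcon1, hcon2, hcon3⟩ := hcon
  obtain ⟨φ, T, h1, h2, h3, hM, hs⟩ := exists_frame6 hU hd
    fun z z' h4 h5 h6 => hcon1 ⟨z, z', h4, h5, h6⟩
  have hN := noComp_of hM hs hcon3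
  exact HX _ T (df_of_nc' h1 h2 h3 hN) hN (noCov_of h3 hM hcon2)

/-- the same without the third alternative -/
theorem exists_pair_cover' (NC : NoCompCov) (HX : XCov)
    {U : Fin 6 → Set (EuclideanSpace ℝ (Fin 2))}
    (hU : ∀ i, Maximal (fun W : Set (EuclideanSpace ℝ (Fin 2)) =>
      IsOpen W ∧ ∀ x ∈ W, ∀ y ∈ W, dist x y ≠ 1) (U i))
    (hd : Dense (⋃ i, U i)) :
    (∃ z z', dist z z' = 1 ∧ z ∈ XU U 4 ∧ z' ∈ XU U 3) ∨
      (∃ z z', ∃ S S' : Set (Fin 6), dist z z' = 1 ∧ MSU U S z ∧ MSU U S' z' ∧ S ∪ S' = univ) := by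
  by_contra hcon
  rw [not_or] at hcon
  obtain ⟨hcon1, hcon2⟩ := hcon
  obtain ⟨φ, T, h1, h2, h3, hM, hs⟩ := exists_frame6 hU hd
    fun z z' h4 h5 h6 => hcon1 ⟨z, z', h4, h5, h6⟩
  have hc := noCov_of h3 hM hcon2
  have hN := NC _ T h1 h2 h3 hc
  exact HX _ T (df_of_nc' h1 h2 h3 hN) hN hc

end Vale.Agent.P032.Six
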