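import Vale.Agent.P032.H416.Props
import Vale.Agent.P032.H169.Full

/-!
# P032: the literal statements of the blocks on full points and chains (light imports)

World: `DF U T`, `NoComp T`.
-/

open Set Filter Topology Metric

noncomputable section

namespace Vale.Agent.P032.Six

/-- a full two-pair point whose circle has no points with four colours besides the two ends of the
full arc -/
def FullP (T : ℂ → Set (Fin 6)) (z : ℂ) : Prop :=
  Full T z ∧ ∀ y, dist y z = 1 → 4 ≤ (T y).ncard → T y = T z

/-- block: a two-pair point with a four coloured point on its circle is full -/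
def FullB : Prop := ∀ (U : Fin 6 → Set ℂ) (T : ℂ → Set (Fin 6)), DF U T → NoComp T →
  ∀ z v, (∃ a b c d, DPt T z a b c d) → dist v z = 1 → (T v).ncard = 4 → FullP T z

/-- block: the parity lemma at full points -/
def ParB : Prop := ∀ (U : Fin 6 → Set ℂ) (T : ℂ → Set (Fin 6)), DF U T → NoComp T →
  (∀ z, (∃ a b c d, DPt T z a b c d) → FullP T z) →
  ∀ z, (∃ a b c d, DPt T z a b c d) → ∀ e f, e ≠ f → e ∉ T z → f ∉ T z → Par T z e f

/-- block: no chains -/
def ChainB : Prop := ∀ (U : Fin 6 → Set ℂ) (T : ℂ → Set (Fin 6)), DF U T → NoComp T →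
  (∀ z, (∃ a b c d, DPt T z a b c d) → FullP T z) →
  (∀ z, (∃ a b c d, DPt T z a b c d) → ∀ e f, e ≠ f → e ∉ T z → f ∉ T z → Par T z e f) →
  ∀ V ρ S C, ¬ JCh T V ρ S C

end Vale.Agent.P032.Six
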