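import Vale.Agent.P032.H416.Props2
import Vale.Agent.P032.H928.Full
import Vale.Agent.P032.H492.Full
import Vale.Agent.P032.H169.ChainB
import Vale.Agent.P032.H695.ParB

/-!
# P032: full points, chains, from the block `SameB`

`SameB` : in the world `DF`, `NoComp` a four coloured point on the circle of a two-pair point has the
palette of the two-pair point.
-/

open Set Filter Topology Metric

noncomputable section

namespace Vale.Agent.P032.Six

/-- block: a four coloured point on the circle of a two-pair point has its palette -/
def SameB : Prop := ∀ (U : Fin 6 → Set ℂ) (T : ℂ → Set (Fin 6)), DF U T → NoComp T →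
  ∀ z v, (∃ a b c d, DPt T z a b c d) → dist v z = 1 → (T v).ncard = 4 → T v = T z

/-- block `FullB` from `SameB` -/
theorem fullB_of_same (HX : SameB) : FullB := by
  intro U T h hN z v hz _ _
  have hJ : ∀ y, dist y z = 1 → 4 ≤ (T y).ncard → T y = T z := fun y hy hy4 =>
    HX U T h hN z y hz hy (le_antisymm (h.le4 y) hy4)
  exact ⟨H928.full_of_J h.irr hN (fun _ _ _ _ _ _ hz nd hJ hX => full_of_noX h.irr hz nd hJ hX)
    hz hJ, hJ⟩

end Vale.Agent.P032.Six
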