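import Vale.Agent.P032.S5.H843.Core7

/-!
# P032: the literal statements of the blocks of the full theorem (light imports)

World: `Irr U T`, `Mn U T` (any maximal family of six open sets without unit distances and with
dense union has such a frame).

`Pair5` : no unit pair of a point with at least five colours and a point with at least four.
`NoCompB` : then `NoComp T`: no complementary, non-opposite palettes of three colours on the circle
of a point with four colours.
`Sil6N` : then, without points with five colours, a clean point with six colours has no silent colour.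
`DF U T` : frame with at most four colours and a locally finite set of two-pair points.
-/

open Set Filter Topology Metric

noncomputable section

namespace Vale.Agent.P032.Six

/-- no unit pair of a point with at least five colours and a point with at least four colours -/
def NoPair5 (T : ℂ → Set (Fin 6)) : Prop :=
  ∀ z v, dist z v = 1 → 5 ≤ (T z).ncard → 4 ≤ (T v).ncard → False

/-- no unit pair of a two-pair point and a point with at least four colours -/
def NoPairD (T : ℂ → Set (Fin 6)) : Prop :=
  ∀ z v, dist z v = 1 → (∃ a b c d, DPt T z a b c d) → 4 ≤ (T v).ncard → False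

/-- complementary palettes of three colours on the circle of a point with four colours are
opposite -/
def NoComp (T : ℂ → Set (Fin 6)) : Prop :=
  ∀ z, (T z).ncard = 4 → ∀ v q, dist v z = 1 → dist q z = 1 → (T v).ncard = 3 → T q = (T v)ᶜ →
    v + q = 2 * z

/-- block: unit pairs with a point of at least five colours -/
def Pair5 : Prop := ∀ (U : Fin 6 → Set ℂ) (T : ℂ → Set (Fin 6)), Irr U T → Mn U T → NoPair5 T

/-- block: unit pairs with a two-pair point -/
def PairD : Prop := ∀ (U : Fin 6 → Set ℂ) (T : ℂ → Set (Fin 6)), Irr U T → Mn U T → NoPair5 T →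
  NoPairD T

/-- block: silent six-coloured points -/
def Sil6 : Prop := ∀ (U : Fin 6 → Set ℂ) (T : ℂ → Set (Fin 6)), Irr U T → Mn U T → NoPair5 T →
  NoPairD T → (∀ z, (T z).ncard ≠ 5) →
  ∀ z, (T z).ncard = 6 → (∀ y, dist y z = 1 → (T y).ncard ≤ 3) →
    ∀ i, (∀ q, dist q z = 1 → i ∈ T q → (T q).ncard ≠ 2) → False

/-- block: complementary plain ends -/
def NoCompB : Prop := ∀ (U : Fin 6 → Set ℂ) (T : ℂ → Set (Fin 6)), Irr U T → Mn U T →
  NoPair5 T → NoComp T

/-- block: silent colours at points with six colours -/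
def Sil6N : Prop := ∀ (U : Fin 6 → Set ℂ) (T : ℂ → Set (Fin 6)), Irr U T → Mn U T →
  NoPair5 T → NoComp T → (∀ z, (T z).ncard ≠ 5) →
  ∀ z, (T z).ncard = 6 → (∀ y, dist y z = 1 → (T y).ncard ≤ 3) →
    ∀ i, (∀ q, dist q z = 1 → i ∈ T q → (T q).ncard ≠ 2) → False

/-- frame with at most four colours and a closed, locally finite set of two-pair points -/
structure DF (U : Fin 6 → Set ℂ) (T : ℂ → Set (Fin 6)) : Prop where
  irr : Irr U T
  mn : Mn U T
  le4 : ∀ z, (T z).ncard ≤ 4
  fin : ∀ (c : ℂ) (R : ℝ), {z | dist z c ≤ R ∧ ∃ a b c d, DPt T z a b c d}.Finite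

namespace DF

variable {U : Fin 6 → Set ℂ} {T : ℂ → Set (Fin 6)}

/-- near every point there is no other two-pair point -/
theorem isolated (h : DF U T) (z : ℂ) :
    ∀ᶠ w in 𝓝 z, (∃ a b c d, DPt T w a b c d) → w = z := by
  have h1 : ({w | dist w z ≤ 1 ∧ ∃ a b c d, DPt T w a b c d} \ {z}).Finite :=
    (h.fin z 1).subset sdiff_subset
  have h2 : z ∉ {w | dist w z ≤ 1 ∧ ∃ a b c d, DPt T w a b c d} \ {z} := fun h => h.2 rfl
  filter_upwards [h1.isClosed.isOpen_compl.mem_nhds h2, closedBall_mem_nhds z one_pos]
    with w h3 h4 h5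
  by_contra h6
  exact h3 ⟨⟨h4, h5⟩, h6⟩

/-- a limit of two-pair points is a two-pair point -/
theorem dpt_of_closure (h : DF U T) {z : ℂ}
    (hz : z ∈ closure {z | ∃ a b c d, DPt T z a b c d}) : ∃ a b c d, DPt T z a b c d := by
  obtain ⟨w, hw, hD⟩ := ((mem_closure_iff_frequently.1 hz).and_eventually (h.isolated z)).exists
  exact hD hw ▸ hw

end DF

/-- block D: no two-pair points in the frame `DF` -/
def DFCore : Prop := ∀ (U : Fin 6 → Set ℂ) (T : ℂ → Set (Fin 6)), DF U T →
  ∀ z a b c d, ¬ DPt T z a b c d

/-- block W (403): with at most four colours the two-pair points are locally finite -/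
def BlockW : Prop := ∀ (U : Fin 6 → Set ℂ) (T : ℂ → Set (Fin 6)), Irr U T → Mn U T →
  (∀ z, (T z).ncard ≤ 4) →
  ∀ (c : ℂ) (R : ℝ), {z | dist z c ≤ R ∧ ∃ a b c d, DPt T z a b c d}.Finite

/-- block 6: no point with six colours -/
def Block6 : Prop := ∀ (U : Fin 6 → Set ℂ) (T : ℂ → Set (Fin 6)), Irr U T → Mn U T →
  ∀ z, (T z).ncard ≠ 6

/-- block 5: no point with five colours, if there is none with six -/
def Block5 : Prop := ∀ (U : Fin 6 → Set ℂ) (T : ℂ → Set (Fin 6)), Irr U T → Mn U T →
  (∀ z, (T z).ncard ≤ 5) → ∀ z, (T z).ncard ≠ 5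

end Vale.Agent.P032.Six
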