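import Vale.Agent.P032.S5.H843.PairD
import Vale.Agent.P032.H416.Props

/-!
# P032: from frames without unit pairs (5, 4) to maximal families

`exists_pair5_of` : if there is no frame `Irr V T`, `Mn V T`, `NoPair5 T`, then every maximal family
of six open sets without unit distances and with dense union has a unit pair of a point near which
no four of the sets suffice and a point near which no three of them suffice.
-/

open Set Filter Topology Metric

noncomputable section

namespace Vale.Agent.P032.Six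

open Vale.Agent.P032.S5.H843 Vale.Agent.P032.S5.H926

/-- **The frame.** -/
theorem exists_T_pair5 {U : Fin 6 → Set ℂ}
    (hU : ∀ i, Maximal (fun W : Set ℂ => IsOpen W ∧ ∀ x ∈ W, ∀ y ∈ W, dist x y ≠ 1) (U i))
    (hd : Dense (⋃ i, U i)) (hp : ∀ z ∈ XU U 4, ∀ v ∈ XU U 3, dist z v ≠ 1) :
    ∃ T, Irr U T ∧ Mn U T ∧ NoPair5 T := by
  classical
  obtain ⟨N₅, V', hN₅, hV'o, hX4, hXV', hfree⟩ := exists_open_free₂ (isClosed_XU U 4)
    (isClosed_XU U 3) hp
  set N : ℂ → ℕ := fun x => if x ∈ V' then (if x ∈ N₅ then 6 else 4) else 3 with hNdef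
  have hNs : ∀ x, ∀ᶠ w in 𝓝 x, N x ≤ N w := by
    intro x
    by_cases hx : x ∈ V'
    · by_cases hx5 : x ∈ N₅
      · filter_upwards [hV'o.mem_nhds hx, hN₅.mem_nhds hx5] with w hw hw5
        simp only [hNdef, if_pos hx, if_pos hx5, if_pos hw, if_pos hw5, le_refl]
      · filter_upwards [hV'o.mem_nhds hx] with w hw
        simp only [hNdef, if_pos hx, if_neg hx5, if_pos hw]
        split_ifs <;> omega
    · filter_upwards with w
      simp only [hNdef, if_neg hx]
      split_ifs <;> omega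
  have hN3 : ∀ x, 3 ≤ N x := by
    intro x
    simp only [hNdef]
    split_ifs <;> omega
  have hex : ∀ n z, z ∉ XU U n → ∃ s : Set (Fin 6), s.ncard ≤ n ∧
      ∀ᶠ w in 𝓝 z, ∃ i ∈ s, w ∈ U i ∨ (w ∈ XX U ∧ i ∈ Pal U w) := by
    intro n z hz
    simp only [XU, mem_ofPred_eq] at hz
    push Not at hz
    obtain ⟨s, hs, hsz⟩ := hz
    exact ⟨s, hs, suf_of_notMem hd hsz⟩
  have hM := Mx_of_maximal hU hd
  obtain ⟨T, hT, hmin, hle⟩ := exists_frameN hM
    (fun i x hx => (mem_iff_of_maximal (hU i) x).2 hx) hNs hN3 (fun z _ => by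
      by_cases hz : z ∈ V'
      · by_cases hz5 : z ∈ N₅
        · refine ⟨univ, ?_, ?_⟩
          · simp only [hNdef, if_pos hz, if_pos hz5]
            exact (Set.ncard_le_card _).trans (by simp)
          · filter_upwards with w
            by_cases hw : w ∈ XX U
            · obtain ⟨i, hi⟩ := hM.Kst_nonempty w
              exact ⟨i, mem_univ _, Or.inr ⟨hw, Kst_sub w hi⟩⟩
            · have h1 : ∃ i, w ∈ U i := by simpa [XX] using hw
              obtain ⟨i, hi⟩ := h1
              exact ⟨i, mem_univ _, Or.inl hi⟩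
        · obtain ⟨s, h1, h2⟩ := hex 4 z fun h => hz5 (hX4 h)
          exact ⟨s, by simpa only [hNdef, if_pos hz, if_neg hz5] using h1, h2⟩
      · obtain ⟨s, h1, h2⟩ := hex 3 z fun h => hz (hXV' h)
        exact ⟨s, by simpa only [hNdef, if_neg hz] using h1, h2⟩)
  have hV4 : ∀ v, 4 ≤ (T v).ncard → v ∈ V' := by
    intro v hv
    by_contra hcon
    have h1 := hle v
    simp only [hNdef, if_neg hcon] at h1
    omega
  refine ⟨T, hT, hmin, fun z v hzv hz hv => hfree z ?_ v (hV4 v hv) hzv⟩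
  by_contra hcon
  have h1 := hle z
  simp only [hNdef, if_neg hcon] at h1
  split_ifs at h1 <;> omega

/-- **Statement in the plane.** -/
theorem exists_pair5_of {U : Fin 6 → Set (EuclideanSpace ℝ (Fin 2))}
    (hU : ∀ i, Maximal (fun W : Set (EuclideanSpace ℝ (Fin 2)) =>
      IsOpen W ∧ ∀ x ∈ W, ∀ y ∈ W, dist x y ≠ 1) (U i))
    (hd : Dense (⋃ i, U i))
    (top : ∀ (V : Fin 6 → Set ℂ) (T : ℂ → Set (Fin 6)), Irr V T → Mn V T → NoPair5 T → False) :
    ∃ z z', dist z z' = 1 ∧ z ∈ XU U 4 ∧ z' ∈ XU U 3 := by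
  by_contra hcon
  let φ : ℂ ≃ₗᵢ[ℝ] EuclideanSpace ℝ (Fin 2) := Complex.orthonormalBasisOneI.repr
  have hcl : ∀ S : Set (EuclideanSpace ℝ (Fin 2)), closure (φ ⁻¹' S) = φ ⁻¹' closure S :=
    fun S => (φ.toHomeomorph.preimage_closure S).symm
  have hdf : ∀ s : Set (Fin 6), ((⋃ j, φ ⁻¹' U j) \ ⋃ i ∈ s, φ ⁻¹' U i) =
      φ ⁻¹' ((⋃ j, U j) \ ⋃ i ∈ s, U i) := by
    intro s
    rw [preimage_sdiff, preimage_iUnion, preimage_iUnion₂]
  have hX : ∀ n z, z ∈ XU (fun i => φ ⁻¹' U i) n → φ z ∈ XU U n := by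
    intro n z hz s hs
    have h1 := hz s hs
    rw [hdf, hcl] at h1
    exact h1
  have hd' : Dense (⋃ i, φ ⁻¹' U i) := by
    rw [← preimage_iUnion]
    exact hd.preimage φ.toHomeomorph.isOpenMap
  obtain ⟨T, h1, h2, h3⟩ := exists_T_pair5 (U := fun i => φ ⁻¹' U i)
    (fun i => maximal_preimage (hU i) φ) hd' fun z hz v hv hzv =>
      hcon ⟨φ z, φ v, by rw [φ.dist_map]; exact hzv, hX 4 z hz, hX 3 v hv⟩
  exact top _ T h1 h2 h3

end Vale.Agent.P032.Six
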