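import Vale.Agent.P032.S5.H138.PairV
import Vale.Agent.P032.H416.Pair5
import Vale.Agent.P032.H416.Full3

/-!
# P032: the statement without the blocks `Pair5` and `SameB`

`exists_pair_of` : if there is no frame `Irr V T`, `Mn V T`, `NoPair5 T`, in which four coloured
points at distance one from two-pair points have the palette of the two-pair point, then every
maximal family of six open sets without unit distances and with dense union has a unit pair of a
point near which no four of the sets suffice and a point near which no three of them suffice, or a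
two-pair point near which the sets `U i`, `i ∈ S`, suffice and at distance one a point near which
the sets `U i`, `i ∈ S'`, suffice and no three of them, for different sets `S`, `S'` of four indices.
-/

open Set Filter Topology Metric

noncomputable section

namespace Vale.Agent.P032.Six

open Vale.Agent.P032.S5.H843 Vale.Agent.P032.S5.H926 Vale.Agent.P032.S5.H138

/-- `S` consists of four indices, the sets `U i`, `i ∈ S`, suffice near `x` and no three of them
suffice -/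
def MSU {E : Type*} [PseudoMetricSpace E] (U : Fin 6 → Set E) (S : Set (Fin 6)) (x : E) : Prop :=
  S.ncard = 4 ∧ x ∉ closure ((⋃ j, U j) \ ⋃ i ∈ S, U i) ∧
    ∀ s ⊂ S, x ∈ closure ((⋃ j, U j) \ ⋃ i ∈ s, U i)

/-- `x` is a two-pair point with the set `S` of indices -/
def DSU {E : Type*} [PseudoMetricSpace E] (U : Fin 6 → Set E) (S : Set (Fin 6)) (x : E) : Prop :=
  MSU U S x ∧ ∃ a b c d : Fin 6, S = {a, b, c, d} ∧
    ∃ p q, dist p x = 1 ∧ dist q x = 1 ∧ ∃ r > 0,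
      (∀ y, dist y x = 1 → dist y p < r → y ∈ closure (U a) ∧ y ∈ closure (U b) ∧
        y ∉ closure ((⋃ j, U j) \ ⋃ i ∈ ({a, b} : Set (Fin 6)), U i)) ∧
      ∀ y, dist y x = 1 → dist y q < r → y ∈ closure (U c) ∧ y ∈ closure (U d) ∧
        y ∉ closure ((⋃ j, U j) \ ⋃ i ∈ ({c, d} : Set (Fin 6)), U i)

theorem MSU_of_frame {U : Fin 6 → Set ℂ} {T : ℂ → Set (Fin 6)} (h : Irr U T) (hmin : Mn U T)
    (hd : Dense (⋃ i, U i)) {z : ℂ} (hz : (T z).ncard = 4) : MSU U (T z) z := by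
  refine ⟨hz, Irr_suff h z, fun s hs => ?_⟩
  by_contra hcon
  exact hmin z hz.ge s hs.subset hs.ne (suf_of_notMem hd hcon)

theorem DSU_of_frame {U : Fin 6 → Set ℂ} {T : ℂ → Set (Fin 6)} (h : Irr U T) (hmin : Mn U T)
    (hd : Dense (⋃ i, U i)) {z : ℂ} {a b c d : Fin 6} (hz : DPt T z a b c d) :
    DSU U (T z) z := by
  have h4 : (T z).ncard = 4 := by
    refine le_antisymm ?_ (ncard_DPt hz)
    rw [hz.pal]
    refine (Set.ncard_insert_le _ _).trans ?_
    have h1 := Set.ncard_insert_le b ({c, d} : Set (Fin 6))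
    have h2 := Set.ncard_insert_le c ({d} : Set (Fin 6))
    rw [Set.ncard_singleton] at h2
    omega
  refine ⟨MSU_of_frame h hmin hd h4, a, b, c, d, hz.pal, ?_⟩
  obtain ⟨p, hp1, hp2⟩ := hz.arc1
  obtain ⟨q, hq1, hq2⟩ := hz.arc2
  obtain ⟨r, hr, h1⟩ := arc_radius h hp2
  obtain ⟨r', hr', h2⟩ := arc_radius h hq2
  exact ⟨p, q, hp1, hq1, min r r', lt_min hr hr',
    fun y hy hyp => h1 y hy (hyp.trans_le (min_le_left _ _)),
    fun y hy hyq => h2 y hy (hyq.trans_le (min_le_right _ _))⟩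

/-- **the world `DF` without complementary ends and with the palettes of the two-pair points** -/
theorem fullP_of_same {U : Fin 6 → Set ℂ} {T : ℂ → Set (Fin 6)} (h : Irr U T) (hN : NoComp T)
    {z : ℂ} (hz : ∃ a b c d, DPt T z a b c d)
    (hJ : ∀ y, dist y z = 1 → 4 ≤ (T y).ncard → T y = T z) : FullP T z :=
  ⟨H928.full_of_J h hN (fun _ _ _ _ _ _ hz nd hJ hX => full_of_noX h hz nd hJ hX) hz hJ, hJ⟩

/-- **Statement in the plane.** -/
theorem exists_pair_of {U : Fin 6 → Set (EuclideanSpace ℝ (Fin 2))}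
    (hU : ∀ i, Maximal (fun W : Set (EuclideanSpace ℝ (Fin 2)) =>
      IsOpen W ∧ ∀ x ∈ W, ∀ y ∈ W, dist x y ≠ 1) (U i))
    (hd : Dense (⋃ i, U i))
    (top : ∀ (V : Fin 6 → Set ℂ) (T : ℂ → Set (Fin 6)), Irr V T → Mn V T → NoPair5 T →
      (∀ z v, (∃ a b c d, DPt T z a b c d) → dist v z = 1 → (T v).ncard = 4 → T v = T z) →
      False) :
    ∃ z z', dist z z' = 1 ∧ ((z ∈ XU U 4 ∧ z' ∈ XU U 3) ∨
      ∃ S S' : Set (Fin 6), S ≠ S' ∧ DSU U S z ∧ MSU U S' z') := by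
  by_contra hcon
  let φ : ℂ ≃ₗᵢ[ℝ] EuclideanSpace ℝ (Fin 2) := Complex.orthonormalBasisOneI.repr
  have hcl : ∀ S : Set (EuclideanSpace ℝ (Fin 2)), closure (φ ⁻¹' S) = φ ⁻¹' closure S :=
    fun S => (φ.toHomeomorph.preimage_closure S).symm
  have hdf : ∀ s : Set (Fin 6), ((⋃ j, φ ⁻¹' U j) \ ⋃ i ∈ s, φ ⁻¹' U i) =
      φ ⁻¹' ((⋃ j, U j) \ ⋃ i ∈ s, U i) := by
    intro s
    rw [preimage_sdiff, preimage_iUnion, preimage_iUnion₂]
  have hcdf : ∀ (s : Set (Fin 6)) (z : ℂ),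
      z ∈ closure ((⋃ j, φ ⁻¹' U j) \ ⋃ i ∈ s, φ ⁻¹' U i) ↔
      φ z ∈ closure ((⋃ j, U j) \ ⋃ i ∈ s, U i) := by
    intro s z
    rw [hdf, hcl]
    rfl
  have hX : ∀ n z, z ∈ XU (fun i => φ ⁻¹' U i) n → φ z ∈ XU U n := by
    intro n z hz s hs
    exact (hcdf s z).1 (hz s hs)
  have hMSU : ∀ S z, MSU (fun i => φ ⁻¹' U i) S z → MSU U S (φ z) := by
    rintro S z ⟨h1, h2, h3⟩
    exact ⟨h1, fun h4 => h2 ((hcdf S z).2 h4), fun s hs => (hcdf s z).1 (h3 s hs)⟩
  have hDSU : ∀ S z, DSU (fun i => φ ⁻¹' U i) S z → DSU U S (φ z) := by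
    rintro S z ⟨h1, a, b, c, d, h2, p, q, hp, hq, r, hr, h3, h4⟩
    refine ⟨hMSU S z h1, a, b, c, d, h2, φ p, φ q, by rw [φ.dist_map]; exact hp,
      by rw [φ.dist_map]; exact hq, r, hr, ?_, ?_⟩
    · intro y hy hyp
      have e : φ (φ.symm y) = y := φ.apply_symm_apply y
      rw [← e, φ.dist_map] at hy hyp
      obtain ⟨h5, h6, h7⟩ := h3 _ hy hyp
      rw [hcl, mem_preimage, e] at h5 h6
      rw [hcdf, e] at h7
      exact ⟨h5, h6, h7⟩
    · intro y hy hyp
      have e : φ (φ.symm y) = y := φ.apply_symm_apply y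
      rw [← e, φ.dist_map] at hy hyp
      obtain ⟨h5, h6, h7⟩ := h4 _ hy hyp
      rw [hcl, mem_preimage, e] at h5 h6
      rw [hcdf, e] at h7
      exact ⟨h5, h6, h7⟩
  have hd' : Dense (⋃ i, φ ⁻¹' U i) := by
    rw [← preimage_iUnion]
    exact hd.preimage φ.toHomeomorph.isOpenMap
  obtain ⟨T, h1, h2, h3⟩ := exists_T_pair5 (U := fun i => φ ⁻¹' U i)
    (fun i => maximal_preimage (hU i) φ) hd' fun z hz v hv hzv =>
      hcon ⟨φ z, φ v, by rw [φ.dist_map]; exact hzv, Or.inl ⟨hX 4 z hz, hX 3 v hv⟩⟩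
  refine top _ T h1 h2 h3 fun z v hz hv hv4 => ?_
  by_contra hne
  obtain ⟨a, b, c, d, hz⟩ := hz
  exact hcon ⟨φ z, φ v, by rw [φ.dist_map, dist_comm]; exact hv, Or.inr ⟨T z, T v, Ne.symm hne,
    hDSU _ _ (DSU_of_frame h1 h2 hd' hz), hMSU _ _ (MSU_of_frame h1 h2 hd' hv4)⟩⟩

end Vale.Agent.P032.Six
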