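import Vale.Agent.P032.H416.XDeg3
import Vale.Agent.P032.H538.FullTop

/-!
# P032: the pure world and the degree theorem

`xPureT : XPureT` : in a frame `DF` without complementary palettes, with pure tiles, in which every
two-pair point is quasi full, there is no two-pair point.
`xDeg : XDeg` : there is no frame `DF` without split points in which every point with at least four
colours has at most two such points on its unit circle.
-/

open Set Filter Topology Metric

noncomputable section

namespace Vale.Agent.P032.Six

open Vale.Agent.P032.H961 Vale.Agent.P032.H154

theorem xFull : XFull := fun _ _ _ hN _ hw _ G _ SA => fullW538 hN hw G SA

theorem xRing : XRing := xRing_of_full xFull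

/-- **the pure world** -/
theorem xPureT : XPureT := xPureT_of_ring xRing

/-- **the degree theorem** -/
theorem xDeg : XDeg := xDeg_of_ring xRing

end Vale.Agent.P032.Six
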