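import Vale.Agent.P032.H416.XDegC0
import Vale.Agent.P032.H416.XDeg
import Vale.Agent.P032.H98.MRow
import Vale.Agent.P032.H273.RowK
import Vale.Agent.P032.H636.ERow

/-!
# P032: the degree theorem, second form, from the last rows of 98
-/

open Set Filter Topology Metric

noncomputable section

namespace Vale.Agent.P032.Six

open Vale.Agent.P032.H961 Vale.Agent.P032.H154 Vale.Agent.P032.H383

theorem rowM_of_rowMC (h : H800.RowMC) : RowM :=
  fun U T hD hN h3 _ _ _ _ _ hV => h U T ⟨hD, hN, h3⟩ _ _ _ _ _ hV

/-- the degree theorem, second form, from row M of 800 -/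
theorem xDegC_of_rowMC (h : H800.RowMC) : XDegC := xDegC_of_rowM xRing (rowM_of_rowMC h)

/-- **the degree theorem, second form**, from the rows T, HA, H of 98 -/
theorem xDegC_of_rows (hT : H98.RowTri98) (hHA : H98.RowHarm98) (hH : H98.RowH98) : XDegC :=
  xDegC_of_rowMC (H98.rowMC98 hT hHA H273.rowK98 H636.rowE98_636 hH)

end Vale.Agent.P032.Six
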