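import Vale.Agent.P032.S5.H843.Hand6
import Vale.Agent.P032.S5.H843.FrameN
import Vale.Agent.P032.H416.Props

/-!
# P032: the top of the full theorem (no local finiteness)

Blocks over an arbitrary frame `Irr U T`, `Mn U T`:
`Pair5` : no unit pair of a point with at least five colours and one with at least four;
`PairD` : no unit pair of a two-pair point and a point with at least four colours;
`Sil6` : no clean six-coloured point with a colour which is in no pair of its circle.

`no_six_of` : then there are no six open sets without unit distance and with dense union.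
-/

open Set Filter Topology Metric

noncomputable section

namespace Vale.Agent.P032.Six

open Vale.Agent.P032.S5.H843 Vale.Agent.P032.S5.H926

/-- **no frame** -/
theorem no_frame_of (H : NoFive) (H6 : NoSixA) (P5 : Pair5) (PD : PairD) (HS : Sil6)
    {U : Fin 6 → Set ℂ} {T : ℂ → Set (Fin 6)} (h : Irr U T) (hmin : Mn U T) : False := by
  have h5 := P5 U T h hmin
  have hD := PD U T h hmin h5
  have hU : ∀ z v, dist z v = 1 → 4 ≤ (T v).ncard →
      (5 ≤ (T z).ncard ∨ ∃ a b c d, DPt T z a b c d) → False := by
    rintro z v hzv hv (h1 | h1)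
    · exact h5 z v hzv h1 hv
    · exact hD z v hzv h1 hv
  have hn := no5_of H h hmin hU
  refine core5 H h hmin (fun z => ?_) hU
  have h1 := Set.ncard_le_ncard (s := T z) (t := univ) (subset_univ _) (Set.toFinite _)
  rw [Set.ncard_univ, Nat.card_eq_fintype_card, Fintype.card_fin] at h1
  by_contra hcon
  have h6 : (T z).ncard = 6 := by omega
  have hcl : ∀ y, dist y z = 1 → (T y).ncard ≤ 3 := by
    intro y hy
    by_contra hcon'
    exact hU z y (by rw [dist_comm]; exact hy) (by omega) (Or.inl (by omega))
  refine H6 U T h hmin hU hn z h6 hcl fun i => ?_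
  by_contra hc
  push Not at hc
  exact HS U T h hmin h5 hD hn z h6 hcl i fun q h1 h2 => hc q h1 h2

/-- **no six sets in the plane** -/
theorem no_six_of (H : NoFive) (H6 : NoSixA) (P5 : Pair5) (PD : PairD) (HS : Sil6)
    (V : Fin 6 → Set ℂ) (hV : ∀ i, IsOpen (V i))
    (hfree : ∀ i, ∀ x ∈ V i, ∀ y ∈ V i, dist x y ≠ 1) (hd : Dense (⋃ i, V i)) : False := by
  choose U hVU hU hmax using fun i => exists_maximal (V i) (hV i) (hfree i)
  have hM := Mx.of_max hU (hd.mono (iUnion_mono hVU)) hmax
  obtain ⟨T, h1, h2, -⟩ := exists_frameN hM (fun i x hx => (hmax i x).2 hx) (N := fun _ => 6)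
    (fun _ => Eventually.of_forall fun _ => le_rfl) (fun _ => by norm_num)
    (fun z _ => ⟨univ, (Set.ncard_le_card _).trans (by simp), by
      filter_upwards with w
      by_cases hw : w ∈ XX U
      · obtain ⟨i, hi⟩ := hM.Kst_nonempty w
        exact ⟨i, mem_univ _, Or.inr ⟨hw, Kst_sub w hi⟩⟩
      · have h1 : ∃ i, w ∈ U i := by simpa [XX] using hw
        obtain ⟨i, hi⟩ := h1
        exact ⟨i, mem_univ _, Or.inl hi⟩⟩)
  exact no_frame_of H H6 P5 PD HS h1 h2

end Vale.Agent.P032.Six
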