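import Vale.Agent.P032.H416.LF
import Vale.Agent.P032.H416.Top
import Vale.Agent.P032.S5.H11.DiscD

/-!
# P032: the frame with finitely many two-pair points in every disc, top of the full theorem

`DF U T` : `Irr U T`, `Mn U T`, every palette has at most four colours, the two-pair points are
locally finite and their set is closed.

`DFCore` : in such a frame there is no two-pair point (the block on two-pair points).
`LF.df` : a locally finite frame (`LF`) with at most four colours is such a frame.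
`no_frame_DF`, `no_six_DF`, `no_lf_DF` : the tops.
-/

open Set Filter Topology Metric

noncomputable section

namespace Vale.Agent.P032.Six

open Vale.Agent.P032.S5.H843 Vale.Agent.P032.S5.H926

/-- a locally finite frame with at most four colours -/
theorem LF.df {U : Fin 6 → Set ℂ} {T : ℂ → Set (Fin 6)} {E : Set ℂ} (h : LF U T E)
    (h4 : ∀ z, (T z).ncard ≤ 4) : DF U T := ⟨h.irr, h.mn, h4, h.finite_dpt⟩

theorem ncard_le_six (s : Set (Fin 6)) : s.ncard ≤ 6 := by
  have h1 := Set.ncard_le_ncard (s := s) (t := univ) (subset_univ _) (Set.toFinite _)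
  rwa [Set.ncard_univ, Nat.card_eq_fintype_card, Fintype.card_fin] at h1

theorem le4_of (B6 : Block6) (B5 : Block5) {U : Fin 6 → Set ℂ} {T : ℂ → Set (Fin 6)}
    (h : Irr U T) (hmin : Mn U T) (z : ℂ) : (T z).ncard ≤ 4 := by
  have h5 : ∀ z, (T z).ncard ≤ 5 := fun z => by
    have h1 := ncard_le_six (T z)
    have h2 := B6 U T h hmin z
    omega
  have h1 := h5 z
  have h2 := B5 U T h hmin h5 z
  omega

/-- **no frame**, from the blocks -/
theorem no_frame_DF (B6 : Block6) (B5 : Block5) (BW : BlockW) (BD : DFCore)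
    {U : Fin 6 → Set ℂ} {T : ℂ → Set (Fin 6)} (h : Irr U T) (hmin : Mn U T) : False := by
  have h4 := le4_of B6 B5 h hmin
  obtain ⟨z, -, a, b, c, d, hD⟩ := h.exists_D_disc hmin 0 fun z _ => h4 z
  exact BD U T ⟨h, hmin, h4, BW U T h hmin h4⟩ z a b c d hD

/-- **existence of a frame** -/
theorem exists_frame_of (V : Fin 6 → Set ℂ) (hV : ∀ i, IsOpen (V i))
    (hfree : ∀ i, ∀ x ∈ V i, ∀ y ∈ V i, dist x y ≠ 1) (hd : Dense (⋃ i, V i)) :
    ∃ U T, Irr U T ∧ Mn U T ∧ ∀ i, V i ⊆ U i := by
  choose U hVU hU hmax using fun i => exists_maximal (V i) (hV i) (hfree i)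
  have hM := Mx.of_max hU (hd.mono (iUnion_mono hVU)) hmax
  obtain ⟨T, h1, h2, -⟩ := exists_frameN hM (fun i x hx => (hmax i x).2 hx) (N := fun _ => 6)
    (fun _ => Eventually.of_forall fun _ => le_rfl) (fun _ => by norm_num)
    (fun z _ => ⟨univ, (Set.ncard_le_card _).trans (by simp), by
      filter_upwards with w
      by_cases hw : w ∈ XX U
      · obtain ⟨i, hi⟩ := hM.Kst_nonempty w
        exact ⟨i, mem_univ _, Or.inr ⟨hw, Kst_sub w hi⟩⟩
      · have h1 : ∃ i, w ∈ U i := by simpa [XX] using hw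
        obtain ⟨i, hi⟩ := h1
        exact ⟨i, mem_univ _, Or.inl hi⟩⟩)
  exact ⟨U, T, h1, h2, hVU⟩

/-- **no six open sets in the plane** (the full theorem), from the blocks -/
theorem no_six_DF (B6 : Block6) (B5 : Block5) (BW : BlockW) (BD : DFCore)
    (V : Fin 6 → Set ℂ) (hV : ∀ i, IsOpen (V i))
    (hfree : ∀ i, ∀ x ∈ V i, ∀ y ∈ V i, dist x y ≠ 1) (hd : Dense (⋃ i, V i)) : False := by
  obtain ⟨U, T, h1, h2, -⟩ := exists_frame_of V hV hfree hd
  exact no_frame_DF B6 B5 BW BD h1 h2

/-- **locally finite families** (without block W) -/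
theorem lfcore_DF (B6 : Block6) (B5 : Block5) (BD : DFCore) : LFCore := by
  intro U T E h
  have h4 := le4_of B6 B5 h.irr h.mn
  obtain ⟨z, -, a, b, c, d, hD⟩ := h.irr.exists_D_disc h.mn 0 fun z _ => h4 z
  exact BD U T (h.df h4) z a b c d hD

end Vale.Agent.P032.Six
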