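import Vale.Agent.P032.Words6.H229.Comp

/-!
# P032: clean points with six colours, from the complement rule at the point
-/

open Set Filter Topology Metric

noncomputable section

namespace Vale.Agent.P032.Six

open Vale.Agent.P032.S5.H767 Vale.Agent.P032.Words6
  Vale.Agent.P032.Words6.H704 Vale.Agent.P032.Words6.H46 Vale.Agent.P032.Words6.H343
  Vale.Agent.P032.Words6.H503 Vale.Agent.P032.Words.Trie

/-- **Six colours**: a clean point with the complement rule has a silent colour -/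
theorem no_six_rs (htab : ∀ L ∈ H122.Lets35, H358.TreeOK L) {U : Fin 6 → Set ℂ}
    {T : ℂ → Set (Fin 6)} (h : Irr U T)
    (hmin : ∀ z, 4 ≤ (T z).ncard → ∀ s, s ⊆ T z → s ≠ T z →
      ¬ ∀ᶠ w in 𝓝 z, ∃ i ∈ s, w ∈ U i ∨ (w ∈ XX U ∧ i ∈ Pal U w))
    {z : ℂ} (h6 : (T z).ncard = 6) (hcl : ∀ y, dist y z = 1 → (T y).ncard ≤ 3)
    (hR : ∀ X : Set (Fin 6), X.ncard = 3 → RS T z X)
    (hact : ∀ i, ∃ q, dist q z = 1 ∧ i ∈ T q ∧ (T q).ncard = 2) : False := by
  obtain ⟨C, hs, hi, ha, hdeg, hcut⟩ := start h hmin h6 hcl hact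
  obtain ⟨L, hL, f, hf, hf6, hM⟩ := H122.classify35 hs hi ha hdeg hcut
  have S := hl_sel (M := MC T z) C fun v hv => C.hd hmin (H229.mem_dats hL) hf hf6 hM hv
  obtain ⟨μ, hμ⟩ := H358.exists_mu hR hf hf6
  obtain ⟨ls, h1, h2⟩ := htab L hL
  obtain ⟨l, hl, h3⟩ := h1 μ
  obtain ⟨D, hB, hok, hokL, rfl⟩ := h2 l hl
  refine H571.leaf_core C hact S (fun v h hv => hl_leg v h hv) (fun v h hv => hl_rot hv) hB hok
    (E := ⟨hf, hf6, hM⟩) (H229.okL_bridge hok hokL) fun p hp => ?_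
  have h4 := hμ p.1
  rw [h3 p hp] at h4
  exact h4

end Vale.Agent.P032.Six
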