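import Vale.Agent.P032.H416.NoComp
import Vale.Agent.P032.S5.H11.Core4

/-!
# P032: no clean two-pair points in the world without complementary plain ends
-/

open Set Filter Topology Metric

noncomputable section

namespace Vale.Agent.P032.Six

open Vale.Agent.P032.S5.H358

variable {U : Fin 6 → Set ℂ} {T : ℂ → Set (Fin 6)}

/-- complementary palettes at a two-pair point are not opposite, if each contains a pair -/
theorem not_opp_of_pair (h : Irr U T) {z v q : ℂ} {a b c d : Fin 6} (hz : DPt T z a b c d)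
    (hv : dist v z = 1) (ha : a ∈ T v) (hb : b ∈ T v) (hc : c ∈ T q) (hd : d ∈ T q) :
    v + q ≠ 2 * z := by
  intro h1
  have e : q = 2 * z - v := by linear_combination h1
  subst e
  exact h.anti hz hv (h.sub _ ha) (h.sub _ hb) (h.sub _ hc) (h.sub _ hd)

/-- complementary ends violate `NoComp` -/
theorem no_compl_of_nc (h : Irr U T) (hN : NoComp T) {z v q : ℂ} (hv : EE T z v)
    (hq : EE T z q) (hc : T q = (T v)ᶜ) : False := by
  obtain ⟨a, b, c, d, h1, h2⟩ := hv.names
  have hz := hv.dpt h h1 h2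
  have ha : a ∈ T z ∩ T v := by rw [h1]; simp
  have hb : b ∈ T z ∩ T v := by rw [h1]; simp
  have hc' : c ∈ T z \ T v := by rw [h2]; simp
  have hd' : d ∈ T z \ T v := by rw [h2]; simp
  refine not_opp_of_pair h hz hv.dist ha.2 hb.2 ?_ ?_
    (hN z hv.card_z v q hv.dist hq.dist hv.card_v hc)
  · rw [hc]; exact hc'.2
  · rw [hc]; exact hd'.2

/-- **no clean two-pair points** -/
theorem not_clean_of_nc (h : Irr U T) (h4 : ∀ z, (T z).ncard ≤ 4) (hN : NoComp T) {z : ℂ}
    (hz : ∃ a b c d, DPt T z a b c d) : ∃ v, dist v z = 1 ∧ (T v).ncard = 4 := by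
  obtain ⟨a, b, c, d, hz⟩ := hz
  by_contra hcon
  push Not at hcon
  have h3 : ∀ y, dist y z = 1 → (T y).ncard ≤ 3 := fun y hy => by
    have h1 := hcon y hy
    have h2 := h4 y
    omega
  obtain ⟨v, q, hv, hq, hc⟩ := start_ok h h4 hz (h.good_three h3).1
  exact no_compl_of_nc h hN hv hq hc

end Vale.Agent.P032.Six
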