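import Vale.Agent.P032.T.ChiFinal
import Vale.Agent.P032.H416.DF
import Vale.Agent.P032.H999.Seven

/-!
# P032: from frames to the chromatic number of the plane

`not_hasCol_six` : if there is no frame `Irr U T`, `Mn U T`, then the plane has no proper colouring
with six colours (arbitrary classes).
-/

open Set Filter Topology Metric

noncomputable section

namespace Vale.Agent.P032.Six

/-- **From frames to colourings.** -/
theorem not_hasCol_six
    (F : ∀ (U : Fin 6 → Set ℂ) (T : ℂ → Set (Fin 6)), Irr U T → Mn U T → False) :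
    ¬ H999.HasCol 6 := by
  rintro ⟨c, hc⟩
  let φ : ℂ ≃ₗᵢ[ℝ] EuclideanSpace ℝ (Fin 2) := Complex.orthonormalBasisOneI.repr
  obtain ⟨c', hm, hp⟩ := Vale.Agent.P032.T.transfer (fun z => c (φ z)) fun x y h => hc _ _ (by
    rw [φ.dist_map]
    exact h)
  obtain ⟨D, hD, hu, -, hdense⟩ := Vale.Agent.P032.M.denseOpen 6 c' hm hp
  obtain ⟨U, T, h1, h2, -⟩ := exists_frame_of D hD (fun i x hx y hy => hu i x hx y hy) hdense
  exact F U T h1 h2

end Vale.Agent.P032.Six
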