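import Vale.Agent.P032.H416.LFD
import Vale.Agent.P032.S5.H843.FrameN
import Vale.Agent.P032.S5.H843.Core7

/-!
# P032: the locally finite frame

`LF U T E` : a maximal family `U` of six open sets without unit distance, with dense union, an
irredundant cover `T` with minimal palettes, and a locally finite set `E` such that near every point
outside `E` the closures of two of the `U i` cover.

`LF.dpt_mem` : the two-pair points (`DPt`) are in `E`.
`LF.finite_dpt` : they are locally finite.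
`LF.line` : outside `E` all partners of a point of `XX U` with the two colours are on one line.
`exists_LF` : every locally finite family gives a frame.
`LFCore` : the statement to be proved: there is no frame.
`no_locally_finite` : then there is no locally finite family in the Euclidean plane.
-/

open Set Filter Topology Metric

noncomputable section

namespace Vale.Agent.P032.Six

open Vale.Agent.P032.S5.H843 Vale.Agent.P032.S5.H926

/-- locally finite frame -/
structure LF (U : Fin 6 → Set ℂ) (T : ℂ → Set (Fin 6)) (E : Set ℂ) : Prop where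
  irr : Irr U T
  mn : Mn U T
  fin : ∀ R : ℝ, (E ∩ closedBall 0 R).Finite
  off : ∀ z, z ∉ E → ∃ a b : Fin 6, a ≠ b ∧ ∀ᶠ w in 𝓝 z, a ∈ Pal U w ∨ b ∈ Pal U w

namespace LF

variable {U : Fin 6 → Set ℂ} {T : ℂ → Set (Fin 6)} {E : Set ℂ}

theorem fin_ball (h : LF U T E) (c : ℂ) (R : ℝ) : (E ∩ closedBall c R).Finite := by
  refine (h.fin (‖c‖ + R)).subset (inter_subset_inter_right _ fun x hx => ?_)
  rw [mem_closedBall, dist_zero_right]
  rw [mem_closedBall, dist_eq_norm] at hx
  calc ‖x‖ = ‖c + (x - c)‖ := by congr 1; ring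
    _ ≤ ‖c‖ + ‖x - c‖ := norm_add_le _ _
    _ ≤ ‖c‖ + R := by linarith

/-- near every point there is no other point of `E` -/
theorem isolated (h : LF U T E) (z : ℂ) : ∀ᶠ w in 𝓝 z, w ∈ E → w = z := by
  have h1 : ((E ∩ closedBall z 1) \ {z}).Finite := (h.fin_ball z 1).subset sdiff_subset
  have h2 : z ∉ (E ∩ closedBall z 1) \ {z} := fun h => h.2 rfl
  filter_upwards [h1.isClosed.isOpen_compl.mem_nhds h2, closedBall_mem_nhds z one_pos]
    with w h3 h4 h5
  by_contra h6
  exact h3 ⟨⟨h5, h4⟩, h6⟩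

theorem isClosed (h : LF U T E) : IsClosed E := by
  rw [← isOpen_compl_iff, isOpen_iff_mem_nhds]
  intro z hz
  filter_upwards [h.isolated z] with w hw hwE
  exact hz (hw hwE ▸ hwE)

/-- the two-pair points are in `E` -/
theorem dpt_mem (h : LF U T E) {z : ℂ} {a b c d : Fin 6} (hD : DPt T z a b c d) : z ∈ E := by
  by_contra hz
  obtain ⟨a', b', -, hab⟩ := h.off z hz
  exact h.irr.noD_of_two hab hD

/-- the two-pair points are locally finite -/
theorem finite_dpt (h : LF U T E) (c : ℂ) (R : ℝ) :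
    {z | dist z c ≤ R ∧ ∃ a b c d, DPt T z a b c d}.Finite :=
  (h.fin_ball c R).subset fun _ hz => ⟨by obtain ⟨a, b, c, d, hD⟩ := hz.2; exact h.dpt_mem hD, hz.1⟩

/-- a limit of two-pair points is a two-pair point -/
theorem dpt_of_closure (h : LF U T E) {z : ℂ} (hz : z ∈ closure {z | ∃ a b c d, DPt T z a b c d}) :
    ∃ a b c d, DPt T z a b c d := by
  obtain ⟨w, hw, hD⟩ := ((mem_closure_iff_frequently.1 hz).and_eventually (h.isolated z)).exists
  obtain ⟨a, b, c, d, hw'⟩ := hw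
  exact ⟨a, b, c, d, hD (h.dpt_mem hw') ▸ hw'⟩

/-- the line of partners of a point outside `E` -/
theorem line (h : LF U T E) {z : ℂ} (hz : z ∉ E) (hX : z ∈ XX U) : ∃ a b : Fin 6, a ≠ b ∧
    (∀ᶠ w in 𝓝 z, a ∈ Pal U w ∨ b ∈ Pal U w) ∧ ∃ y₀, dist z y₀ = 1 ∧
      ∀ y, dist z y = 1 → (a ∈ Pal U y ∨ b ∈ Pal U y) → y = y₀ ∨ y + y₀ = 2 * z := by
  obtain ⟨a, b, hab, h1⟩ := h.off z hz
  exact ⟨a, b, hab, h1, h.irr.line_of_two hX h1⟩

end LF

/-- **Existence**, with prescribed lower semicontinuous bound for the order. -/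
theorem exists_LF_N {U : Fin 6 → Set ℂ} (hM : Mx U)
    (hmax : ∀ i x, (∀ y ∈ closure (U i), dist x y ≠ 1) → x ∈ U i) {E : Set ℂ}
    (hE : ∀ R : ℝ, (E ∩ closedBall 0 R).Finite)
    (hoff : ∀ z, z ∉ E → ∃ a b : Fin 6, ∀ᶠ w in 𝓝 z, w ∈ closure (U a) ∪ closure (U b))
    {N : ℂ → ℕ} (hN : ∀ x, ∀ᶠ w in 𝓝 x, N x ≤ N w) (hN3 : ∀ x, 3 ≤ N x)
    (hsuf : ∀ z, z ∈ XX U → ∃ s : Set (Fin 6), s.ncard ≤ N z ∧
      ∀ᶠ w in 𝓝 z, ∃ i ∈ s, w ∈ U i ∨ (w ∈ XX U ∧ i ∈ Pal U w)) :
    ∃ T, LF U T E ∧ ∀ z, (T z).ncard ≤ N z := by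
  obtain ⟨T, h1, h2, h3⟩ := exists_frameN hM hmax hN hN3 hsuf
  refine ⟨T, ⟨h1, h2, hE, fun z hz => ?_⟩, h3⟩
  obtain ⟨a, b, hab⟩ := hoff z hz
  rcases eq_or_ne a b with rfl | hne
  · obtain ⟨b', hb'⟩ := exists_ne a
    exact ⟨a, b', hb'.symm, hab.mono fun w hw => Or.inl (hw.elim id id)⟩
  · exact ⟨a, b, hne, hab.mono fun w hw => hw⟩

/-- **Existence.** -/
theorem exists_LF (V : Fin 6 → Set ℂ) (hV : ∀ i, IsOpen (V i))
    (hfree : ∀ i, ∀ x ∈ V i, ∀ y ∈ V i, dist x y ≠ 1) {E : Set ℂ}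
    (hE : ∀ R : ℝ, (E ∩ closedBall 0 R).Finite)
    (hoff : ∀ z, z ∉ E → ∃ a b : Fin 6, z ∈ interior (closure (V a) ∪ closure (V b))) :
    ∃ U T, LF U T E ∧ ∀ i, V i ⊆ U i := by
  have hd : Dense (⋃ i, V i) := by
    have hc : E.Countable := by
      have h1 : E = ⋃ n : ℕ, E ∩ closedBall 0 n := by
        ext x
        simp only [mem_iUnion, mem_inter_iff, mem_closedBall, dist_zero_right]
        constructor
        · intro hx
          obtain ⟨n, hn⟩ := exists_nat_ge ‖x‖
          exact ⟨n, hx, hn⟩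
        · rintro ⟨n, hx, -⟩
          exact hx
      rw [h1]
      exact countable_iUnion fun n => (hE n).countable
    have h2 : Dense (Eᶜ) := hc.dense_compl ℝ
    rw [← dense_closure]
    refine h2.mono fun x hx => ?_
    obtain ⟨a, b, hab⟩ := hoff x hx
    rcases interior_subset hab with h3 | h3
    · exact closure_mono (subset_iUnion _ a) h3
    · exact closure_mono (subset_iUnion _ b) h3
  choose U hVU hU hmax using fun i => exists_maximal (V i) (hV i) (hfree i)
  have hM := Mx.of_max hU (hd.mono (iUnion_mono hVU)) hmax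
  obtain ⟨T, h1, -⟩ := exists_LF_N hM (fun i x hx => (hmax i x).2 hx) hE (fun z hz => by
      obtain ⟨a, b, hab⟩ := hoff z hz
      refine ⟨a, b, ?_⟩
      filter_upwards [isOpen_interior.mem_nhds hab] with w hw
      exact (interior_subset hw).imp (fun h => closure_mono (hVU a) h)
        (fun h => closure_mono (hVU b) h)) (N := fun _ => 6)
    (fun _ => Eventually.of_forall fun _ => le_rfl) (fun _ => by norm_num)
    (fun z _ => ⟨univ, (Set.ncard_le_card _).trans (by simp), by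
      filter_upwards with w
      by_cases hw : w ∈ XX U
      · obtain ⟨i, hi⟩ := hM.Kst_nonempty w
        exact ⟨i, mem_univ _, Or.inr ⟨hw, Kst_sub w hi⟩⟩
      · have h1 : ∃ i, w ∈ U i := by simpa [XX] using hw
        obtain ⟨i, hi⟩ := h1
        exact ⟨i, mem_univ _, Or.inl hi⟩⟩)
  exact ⟨U, T, h1, hVU⟩

/-- **the statement to be proved**: there is no locally finite frame -/
def LFCore : Prop := ∀ (U : Fin 6 → Set ℂ) (T : ℂ → Set (Fin 6)) (E : Set ℂ), LF U T E → False

/-- **Seven colours are needed for locally finite colourings**, from `LFCore`. -/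
theorem no_locally_finite (H : LFCore) (V : Fin 6 → Set (EuclideanSpace ℝ (Fin 2)))
    (hV : ∀ i, IsOpen (V i)) (hfree : ∀ i, ∀ x ∈ V i, ∀ y ∈ V i, dist x y ≠ 1)
    (E : Set (EuclideanSpace ℝ (Fin 2))) (hE : ∀ R : ℝ, (E ∩ closedBall 0 R).Finite)
    (hoff : ∀ z, z ∉ E → ∃ a b : Fin 6, z ∈ interior (closure (V a) ∪ closure (V b))) :
    False := by
  let φ : ℂ ≃ₗᵢ[ℝ] EuclideanSpace ℝ (Fin 2) := Complex.orthonormalBasisOneI.repr
  have hcl : ∀ s : Set (EuclideanSpace ℝ (Fin 2)), closure (φ ⁻¹' s) = φ ⁻¹' closure s := fun s =>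
    (φ.toHomeomorph.preimage_closure s).symm
  have hint : ∀ s : Set (EuclideanSpace ℝ (Fin 2)), interior (φ ⁻¹' s) = φ ⁻¹' interior s :=
    fun s => (φ.toHomeomorph.preimage_interior s).symm
  obtain ⟨U, T, h, -⟩ := exists_LF (fun i => φ ⁻¹' V i) (fun i => (hV i).preimage φ.continuous)
    (fun i x hx y hy => by
      have := hfree i _ hx _ hy
      rwa [φ.dist_map] at this) (E := φ ⁻¹' E) (fun R => by
      refine ((hE R).preimage φ.injective.injOn).subset ?_
      rintro x ⟨h1, h2⟩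
      refine ⟨h1, ?_⟩
      rw [mem_closedBall, dist_zero_right] at h2 ⊢
      rwa [φ.norm_map]) (fun z hz => by
      obtain ⟨a, b, hab⟩ := hoff (φ z) hz
      refine ⟨a, b, ?_⟩
      rw [hcl, hcl, ← preimage_union, hint]
      exact hab)
  exact H U T _ h

end Vale.Agent.P032.Six
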