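import Vale.Agent.P032.S5.H80.Ray

/-!
# P032: two-coloured points of the given family carry no two-pair points

`Irr.pair_line` : if the closures of `U a` and `U b` cover a neighbourhood of `z`, then the partners
of `z` with the colours `a`, `b` are on one line through `z`.
`Irr.line_of_two` : the line exists.
`Irr.noD_of_two` : such a point is not a two-pair point (`DPt`).
-/

open Set Filter Topology Metric

noncomputable section

namespace Vale.Agent.P032.Six

variable {k : ℕ} {U : Fin k → Set ℂ} {T : ℂ → Set (Fin k)}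

/-- the partners of a point near which the closures of two of the sets cover -/
theorem Irr.pair_line (h : Irr U T) {z y y' : ℂ} {a b : Fin k}
    (hz : ∀ᶠ w in 𝓝 z, a ∈ Pal U w ∨ b ∈ Pal U w) (hy : dist z y = 1) (hy' : dist z y' = 1)
    (ha : a ∈ Pal U y) (hb : b ∈ Pal U y') : y' = y ∨ y' + y = 2 * z := by
  refine h.mx.partner_line (u := y) (p := z) (t := b) hy ?_ hy' hb
  filter_upwards [mem_nhdsWithin_of_mem_nhds (hz.eventually_nhds), self_mem_nhdsWithin]
    with q h1 h2
  by_contra hcon
  have h3 : q ∈ interior (closure (U a)) := by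
    refine mem_interior_iff_mem_nhds.2 ?_
    have h4 : ∀ᶠ w in 𝓝 q, b ∉ Pal U w := isClosed_closure.isOpen_compl.mem_nhds hcon
    filter_upwards [h1, h4] with w h5 h6
    exact h5.resolve_right h6
  exact h.mx.notMem' (h.int_closure h3) h2 ha

/-- the line -/
theorem Irr.line_of_two (h : Irr U T) {z : ℂ} {a b : Fin k} (hX : z ∈ XX U)
    (hz : ∀ᶠ w in 𝓝 z, a ∈ Pal U w ∨ b ∈ Pal U w) :
    ∃ y₀, dist z y₀ = 1 ∧ ∀ y, dist z y = 1 → (a ∈ Pal U y ∨ b ∈ Pal U y) →
      y = y₀ ∨ y + y₀ = 2 * z := by
  obtain ⟨ya, hya, ha⟩ := h.partner_XX hX a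
  obtain ⟨yb, hyb, hb⟩ := h.partner_XX hX b
  refine ⟨ya, hya, fun y hy hab => ?_⟩
  rcases hab with h1 | h1
  · have h2 := h.pair_line hz hy hyb h1 hb
    have h3 := h.pair_line hz hya hyb ha hb
    rcases h2 with h2 | h2 <;> rcases h3 with h3 | h3
    · exact Or.inl (h2.symm.trans h3)
    · exact Or.inr (by rw [← h2]; exact h3)
    · exact Or.inr (by rw [← h3, add_comm]; exact h2)
    · exact Or.inl (by linear_combination h2 - h3)
  · exact h.pair_line hz hya hy ha h1

variable {U : Fin 6 → Set ℂ} {T : ℂ → Set (Fin 6)}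

/-- one step of sixty degrees on the circle of a two-pair point all whose circle (off a line) has
its palettes in `T z` -/
theorem Irr.arc_step (h : Irr U T) {z y y' : ℂ} {P Q : Set (Fin 6)} (hX : T z ⊆ P ∪ Q)
    (hQ : Q.ncard = 2) (hy : Arc T z y P) (hy' : dist y' z = 1) (hyy : dist y' y = 1)
    (hsub : T y' ⊆ T z) : Arc T z y' Q := by
  have hdis : ∀ i ∈ P, i ∉ T y' := by
    intro i hi hiy
    rcases h.mx.partner_line (u := z) (p := y) (t := i) hy.1
      (hy.2.mono fun q hq => h.sub q (by rw [hq]; exact hi))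
      (by rw [dist_comm]; exact hyy) (h.sub y' hiy) with h1 | h1
    · rw [h1, dist_self] at hy'
      exact zero_ne_one hy'
    · have h2 : dist y' z = 2 := by
        rw [dist_eq_norm, show y' - z = 2 * (y - z) by linear_combination h1, norm_mul,
          ← dist_eq_norm, hy.1]
        simp
      rw [hy'] at h2
      norm_num at h2
  have hTQ : T y' ⊆ Q := by
    intro i hi
    rcases hX (hsub hi) with h1 | h1
    · exact absurd hi (hdis i h1)
    · exact h1
  have key : ∀ q, dist q z = 1 → T q ⊆ T y' → T q = Q := by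
    intro q hq hqs
    have hqX : q ∈ XX U := by
      obtain ⟨i, hi⟩ := h.ne q
      exact h.mem_XX hq hi (h.sub z (hsub (hqs hi)))
    obtain ⟨i, hi⟩ := h.ne q
    obtain ⟨j, hj, hji⟩ := h.two hqX i
    refine Set.eq_of_subset_of_ncard_le (hqs.trans hTQ) ?_ (Set.toFinite _)
    rw [hQ]
    have h3 : ({i, j} : Set (Fin 6)) ⊆ T q := by
      rintro m (rfl | hm)
      · exact hi
      · rw [mem_singleton_iff] at hm; subst hm; exact hj
    have h4 := Set.ncard_le_ncard h3 (Set.toFinite _)
    rwa [Set.ncard_pair hji.symm] at h4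
  refine ⟨hy', ?_⟩
  filter_upwards [mem_nhdsWithin_of_mem_nhds (h.nhd y'), self_mem_nhdsWithin] with q h1 h2
  exact key q h2 h1

/-- **a point near which the closures of two of the sets cover is not a two-pair point** -/
theorem Irr.noD_of_two (h : Irr U T) {z : ℂ} {a b : Fin 6}
    (hz : ∀ᶠ w in 𝓝 z, a ∈ Pal U w ∨ b ∈ Pal U w) {p q r s : Fin 6} (hD : DPt T z p q r s) :
    False := by
  -- two different colours
  wlog hab : a ≠ b generalizing b
  · push Not at hab
    subst hab
    obtain ⟨b', hb'⟩ := exists_ne a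
    exact this (b := b') (hz.mono fun w hw => Or.inl (hw.elim id id)) hb'.symm
  obtain ⟨g1, hg1⟩ := hD.arc1
  have hX : z ∈ XX U := h.mem_XX (x := z) (y := g1) (i := p) (by rw [dist_comm]; exact hg1.1)
    (by rw [hD.pal]; simp) (h.sub g1 (by rw [hg1.mem]; simp))
  obtain ⟨y₀, hy₀, hline⟩ := h.line_of_two hX hz
  have hoff : ∀ y, dist y z = 1 → y ≠ y₀ → y + y₀ ≠ 2 * z → a ∉ T y ∧ b ∉ T y := by
    intro y hy h1 h2
    constructor
    · intro ha
      rcases hline y (by rw [dist_comm]; exact hy) (Or.inl (h.sub y ha)) with h3 | h3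
      · exact h1 h3
      · exact h2 h3
    · intro hb
      rcases hline y (by rw [dist_comm]; exact hy) (Or.inr (h.sub y hb)) with h3 | h3
      · exact h1 h3
      · exact h2 h3
  -- the palette is the complement of `{a, b}`
  obtain ⟨g, hg, hg0, hg0'⟩ := hg1.exists_off_line (y := y₀)
  obtain ⟨g2, hg2⟩ := hD.arc2
  obtain ⟨g', hg', hg'0, hg'0'⟩ := hg2.exists_off_line (y := y₀)
  have hP := hoff g hg.1 hg0 hg0'
  have hQ := hoff g' hg'.1 hg'0 hg'0'
  rw [hg.mem] at hP
  rw [hg'.mem] at hQ
  have hTz : T z = ({a, b} : Set (Fin 6))ᶜ := by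
    refine Set.eq_of_subset_of_ncard_le ?_ ?_ (Set.toFinite _)
    · rw [hD.pal]
      rintro i (rfl | rfl | rfl | hi)
      · rintro (rfl | h1)
        · exact hP.1 (by simp)
        · rw [mem_singleton_iff] at h1; subst h1; exact hP.2 (by simp)
      · rintro (rfl | h1)
        · exact hP.1 (by simp)
        · rw [mem_singleton_iff] at h1; subst h1; exact hP.2 (by simp)
      · rintro (rfl | h1)
        · exact hQ.1 (by simp)
        · rw [mem_singleton_iff] at h1; subst h1; exact hQ.2 (by simp)
      · rw [mem_singleton_iff] at hi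
        subst hi
        rintro (rfl | h1)
        · exact hQ.1 (by simp)
        · rw [mem_singleton_iff] at h1; subst h1; exact hQ.2 (by simp)
    · have h4 := Set.ncard_add_ncard_compl ({a, b} : Set (Fin 6))
      simp only [Nat.card_eq_fintype_card, Fintype.card_fin] at h4
      rw [Set.ncard_pair hab] at h4
      have h5 : 4 ≤ (T z).ncard := by
        rw [hD.pal]
        have e : ({p, q, r, s} : Set (Fin 6)) = (({p, q, r, s} : Finset (Fin 6)) : Set (Fin 6)) := by
          simp
        rw [e, Set.ncard_coe_finset]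
        rw [Finset.card_insert_of_notMem, Finset.card_insert_of_notMem, Finset.card_pair hD.cd]
        · simp [hD.bc, hD.bd]
        · simp [hD.ab, hD.ac, hD.ad]
      omega
  have hsub : ∀ y, dist y z = 1 → y ≠ y₀ → y + y₀ ≠ 2 * z → T y ⊆ T z := by
    intro y hy h1 h2 i hi
    rw [hTz]
    have h3 := hoff y hy h1 h2
    rintro (rfl | h4)
    · exact h3.1 hi
    · rw [mem_singleton_iff] at h4; subst h4; exact h3.2 hi
  -- a generic direction of the first pair
  obtain ⟨t0, ht0⟩ := exists_cis (u := g - z) (by rw [← dist_eq_norm]; exact hg.1)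
  obtain ⟨t1, ht1⟩ := exists_cis (u := y₀ - z) (by rw [← dist_eq_norm, dist_comm]; exact hy₀)
  have hgt : z + cis t0 = g := by rw [← ht0]; ring
  rw [← hgt] at hg
  obtain ⟨η, hη, hJ⟩ := hg.exists_eta
  obtain ⟨t, htη, hsin⟩ : ∃ t, |t - t0| < η ∧ Real.sin (3 * (t - t1)) ≠ 0 := by
    by_cases h1 : Real.sin (3 * (t0 - t1)) = 0
    · obtain ⟨δ, hδ0, hδη, hδ1⟩ : ∃ δ : ℝ, 0 < δ ∧ δ < η ∧ δ < 1 :=
        ⟨min (η / 2) (1 / 2), by positivity, lt_of_le_of_lt (min_le_left _ _) (by linarith),
          lt_of_le_of_lt (min_le_right _ _) (by norm_num)⟩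
      refine ⟨t0 + δ, ?_, ?_⟩
      · rw [add_sub_cancel_left, abs_of_pos hδ0]; exact hδη
      · rw [show 3 * (t0 + δ - t1) = 3 * (t0 - t1) + 3 * δ by ring, Real.sin_add, h1, zero_mul,
          zero_add]
        have h2 : Real.cos (3 * (t0 - t1)) ≠ 0 := by
          intro h3
          have h4 := Real.sin_sq_add_cos_sq (3 * (t0 - t1))
          rw [h1, h3] at h4
          norm_num at h4
        have h3 : 0 < Real.sin (3 * δ) :=
          Real.sin_pos_of_pos_of_lt_pi (by linarith) (by linarith [Real.pi_gt_three])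
        exact mul_ne_zero h2 h3.ne'
    · exact ⟨t0, by rw [sub_self, abs_zero]; exact hη, h1⟩
  have hgen : ∀ n : ℤ, z + cis (t + n * (Real.pi / 3)) ≠ y₀ ∧
      z + cis (t + n * (Real.pi / 3)) + y₀ ≠ 2 * z := by
    have key : ∀ (n m : ℤ) , t + n * (Real.pi / 3) = t1 + m * Real.pi → False := by
      intro n m hnm
      apply hsin
      have : 3 * (t - t1) = ((3 * m - n : ℤ) : ℝ) * Real.pi := by
        push_cast
        linear_combination 3 * hnm
      rw [this]
      exact Real.sin_int_mul_pi _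
    have hcis : ∀ x y : ℝ, cis x = cis y → ∃ m : ℤ, x = y + m * (2 * Real.pi) := by
      intro x y hxy
      unfold cis at hxy
      obtain ⟨n, hn⟩ := Complex.exp_eq_exp_iff_exists_int.1 hxy
      refine ⟨n, ?_⟩
      have h1 : (x : ℂ) = y + n * (2 * Real.pi) := by
        have hI := Complex.I_ne_zero
        have : ((x : ℂ) - (y + n * (2 * Real.pi))) * Complex.I = 0 := by
          linear_combination hn
        rcases mul_eq_zero.1 this with h | h
        · linear_combination h
        · exact absurd h hI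
      exact_mod_cast h1
    intro n
    constructor
    · intro h1
      have h2 : cis (t + n * (Real.pi / 3)) = cis t1 := by rw [← ht1]; linear_combination h1
      obtain ⟨m, hm⟩ := hcis _ _ h2
      exact key n (2 * m) (by rw [hm]; push_cast; ring)
    · intro h1
      have h2 : cis (t + n * (Real.pi / 3)) = cis (t1 + Real.pi) := by
        have h3 : cis (t1 + Real.pi) = - cis t1 := by
          unfold cis
          push_cast
          rw [add_mul, Complex.exp_add, Complex.exp_pi_mul_I]
          ring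
        rw [h3, ← ht1]; linear_combination h1
      obtain ⟨m, hm⟩ := hcis _ _ h2
      exact key n (2 * m + 1) (by rw [hm]; push_cast; ring)
  have hstep : ∀ x : ℝ, dist (z + cis (x + Real.pi / 3)) (z + cis x) = 1 := by
    intro x
    rw [dist_eq_norm]
    have h1 : z + cis (x + Real.pi / 3) - (z + cis x) = (cis (Real.pi / 3) - 1) * cis x := by
      unfold cis
      push_cast
      rw [add_mul, Complex.exp_add]
      ring
    rw [h1, norm_mul, norm_w_sub, norm_cis, one_mul]
  have hPQ : T z ⊆ {p, q} ∪ {r, s} := by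
    rw [hD.pal]
    intro i hi
    simp only [mem_insert_iff, mem_singleton_iff, mem_union] at hi ⊢
    tauto
  have hQP : T z ⊆ {r, s} ∪ {p, q} := by rw [union_comm]; exact hPQ
  have a0 : Arc T z (z + cis t) {p, q} := by
    refine ⟨dist_add_cis z t, ?_⟩
    have h1 : T (z + cis t) = {p, q} := hJ t htη
    have h2 := hsub (z + cis t) (dist_add_cis z t) (by simpa using (hgen 0).1)
      (by simpa using (hgen 0).2)
    filter_upwards [mem_nhdsWithin_of_mem_nhds (h.nhd (z + cis t)), self_mem_nhdsWithin]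
      with x hx1 hx2
    have hxX : x ∈ XX U := by
      obtain ⟨i, hi⟩ := h.ne x
      exact h.mem_XX hx2 hi (h.sub z (h2 (hx1 hi)))
    rw [h1] at hx1
    obtain ⟨i, hi⟩ := h.ne x
    obtain ⟨j, hj, hji⟩ := h.two hxX i
    refine Set.eq_of_subset_of_ncard_le hx1 ?_ (Set.toFinite _)
    rw [Set.ncard_pair hD.ab]
    have h3 : ({i, j} : Set (Fin 6)) ⊆ T x := by
      rintro m (rfl | hm)
      · exact hi
      · rw [mem_singleton_iff] at hm; subst hm; exact hj
    have h4 := Set.ncard_le_ncard h3 (Set.toFinite _)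
    rwa [Set.ncard_pair hji.symm] at h4
  have a1 : Arc T z (z + cis (t + Real.pi / 3)) {r, s} := by
    have h1 := hgen 1
    simp only [Int.cast_one, one_mul] at h1
    exact h.arc_step hPQ (Set.ncard_pair hD.cd) a0 (dist_add_cis z _) (hstep t)
      (hsub _ (dist_add_cis z _) h1.1 h1.2)
  have a2 : Arc T z (z + cis (t + Real.pi / 3 + Real.pi / 3)) {p, q} := by
    have h1 := hgen 2
    have e : t + ((2 : ℤ) : ℝ) * (Real.pi / 3) = t + Real.pi / 3 + Real.pi / 3 := by
      push_cast; ring
    rw [e] at h1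
    exact h.arc_step hQP (Set.ncard_pair hD.ab) a1 (dist_add_cis z _) (hstep _)
      (hsub _ (dist_add_cis z _) h1.1 h1.2)
  have a3 : Arc T z (z + cis (t + Real.pi / 3 + Real.pi / 3 + Real.pi / 3)) {r, s} := by
    have h1 := hgen 3
    have e : t + ((3 : ℤ) : ℝ) * (Real.pi / 3) = t + Real.pi / 3 + Real.pi / 3 + Real.pi / 3 := by
      push_cast; ring
    rw [e] at h1
    exact h.arc_step hPQ (Set.ncard_pair hD.cd) a2 (dist_add_cis z _) (hstep _)
      (hsub _ (dist_add_cis z _) h1.1 h1.2)
  have e3 : t + Real.pi / 3 + Real.pi / 3 + Real.pi / 3 = t + Real.pi := by ring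
  rw [e3] at a3
  obtain ⟨η0, hη0, hJ0⟩ := a0.exists_eta
  obtain ⟨η3, hη3, hJ3⟩ := a3.exists_eta
  -- the ray orthogonal to this direction has no colour
  have r0 : ∀ i ∈ ({p, q} : Set (Fin 6)), ∀ᶠ x : ℝ in 𝓝[>] 0,
      i ∉ Pal U (z + x * (Complex.I * cis t)) := by
    intro i hi
    have h1 := h.mx.ray_avoid (z := z) hη0 (i := i) (fun x hx => h.sub _ (by
      rw [hJ0 x hx]; exact hi)) (σ := 1) (Or.inl rfl)
    simpa using h1
  have r3 : ∀ i ∈ ({r, s} : Set (Fin 6)), ∀ᶠ x : ℝ in 𝓝[>] 0,
      i ∉ Pal U (z + x * (Complex.I * cis t)) := by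
    intro i hi
    have h1 := h.mx.ray_avoid (z := z) hη3 (i := i) (fun x hx => h.sub _ (by
      rw [hJ3 x hx]; exact hi)) (σ := -1) (Or.inr rfl)
    have h3 : cis (t + Real.pi) = - cis t := by
      unfold cis
      push_cast
      rw [add_mul, Complex.exp_add, Complex.exp_pi_mul_I]
      ring
    rw [h3] at h1
    refine h1.mono fun x hx => ?_
    have e : ((-1 : ℝ) : ℂ) * (Complex.I * -cis t) = Complex.I * cis t := by push_cast; ring
    rwa [e] at hx
  have hcont : Tendsto (fun x : ℝ => z + x * (Complex.I * cis t)) (𝓝[>] 0) (𝓝 z) := by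
    have : Continuous fun x : ℝ => z + x * (Complex.I * cis t) := by fun_prop
    have h2 := this.tendsto 0
    simp only [Complex.ofReal_zero, zero_mul, add_zero] at h2
    exact h2.mono_left nhdsWithin_le_nhds
  obtain ⟨x, h1, h2, h3, h4, h5⟩ := ((r0 p (by simp)).and ((r0 q (by simp)).and
    ((r3 r (by simp)).and ((r3 s (by simp)).and (hcont.eventually (h.nhd z)))))).exists
  obtain ⟨i, hi⟩ := h.ne (z + x * (Complex.I * cis t))
  have hiP := h.sub _ hi
  have := h5 hi
  rw [hD.pal] at this
  rcases this with rfl | rfl | rfl | h6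
  · exact h1 hiP
  · exact h2 hiP
  · exact h3 hiP
  · rw [mem_singleton_iff] at h6; subst h6; exact h4 hiP

end Vale.Agent.P032.Six
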