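import Vale.Agent.P032.H416.LF
import Vale.Agent.P032.S5.H843.Hand6

/-!
# P032: the top of the locally finite theorem

`lfcore_of` : `LFCore` from four blocks: no unit pair (two-pair point, four colours), no unit pair
(five colours, four colours), no unit pair (six colours, four colours), no clean six-coloured point
with a colour which is in no pair of its circle (in a locally finite frame without five-coloured
points and without these unit pairs).
-/

open Set Filter Topology Metric

noncomputable section

namespace Vale.Agent.P032.Six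

open Vale.Agent.P032.S5.H843

/-- no unit pair of a point with at least five colours and a point with at least four colours -/
def LFPair5 : Prop := ∀ (U : Fin 6 → Set ℂ) (T : ℂ → Set (Fin 6)) (E : Set ℂ), LF U T E →
  ∀ z v, dist z v = 1 → 5 ≤ (T z).ncard → 4 ≤ (T v).ncard → False

/-- no unit pair of a two-pair point and a point with at least four colours (if there is no unit
pair of a point with at least five colours and a point with at least four colours) -/
def LFPairD : Prop := ∀ (U : Fin 6 → Set ℂ) (T : ℂ → Set (Fin 6)) (E : Set ℂ), LF U T E →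
  (∀ z v, dist z v = 1 → 5 ≤ (T z).ncard → 4 ≤ (T v).ncard → False) →
  ∀ z v, dist z v = 1 → (∃ a b c d, DPt T z a b c d) → 4 ≤ (T v).ncard → False

/-- no silent six-coloured point -/
def LFSil : Prop := ∀ (U : Fin 6 → Set ℂ) (T : ℂ → Set (Fin 6)) (E : Set ℂ), LF U T E →
  (∀ z v, dist z v = 1 → 4 ≤ (T v).ncard →
    (5 ≤ (T z).ncard ∨ ∃ a b c d, DPt T z a b c d) → False) →
  (∀ z, (T z).ncard ≠ 5) →
  ∀ z, (T z).ncard = 6 → (∀ y, dist y z = 1 → (T y).ncard ≤ 3) →
    ∀ i, (∀ q, dist q z = 1 → i ∈ T q → (T q).ncard ≠ 2) → False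

theorem lfcore_of (H : NoFive) (H6 : NoSixA) (P5 : LFPair5) (PD : LFPairD) (HS : LFSil) :
    LFCore := by
  intro U T E h
  have h5 := P5 U T E h
  have hU : ∀ z v, dist z v = 1 → 4 ≤ (T v).ncard →
      (5 ≤ (T z).ncard ∨ ∃ a b c d, DPt T z a b c d) → False := by
    rintro z v hzv hv (h1 | h1)
    · exact h5 z v hzv h1 hv
    · exact PD U T E h h5 z v hzv h1 hv
  have hn := no5_of H h.irr h.mn hU
  refine core5 H h.irr h.mn (fun z => ?_) hU
  have h1 := Set.ncard_le_ncard (s := T z) (t := univ) (subset_univ _) (Set.toFinite _)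
  rw [Set.ncard_univ, Nat.card_eq_fintype_card, Fintype.card_fin] at h1
  by_contra hcon
  have h6 : (T z).ncard = 6 := by omega
  have hcl : ∀ y, dist y z = 1 → (T y).ncard ≤ 3 := by
    intro y hy
    by_contra hcon'
    exact hU z y (by rw [dist_comm]; exact hy) (by omega) (Or.inl (by omega))
  refine H6 U T h.irr h.mn hU hn z h6 hcl fun i => ?_
  by_contra hc
  push Not at hc
  exact HS U T E h hU hn z h6 hcl i fun q h1 h2 => hc q h1 h2

end Vale.Agent.P032.Six
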