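import Vale.Agent.P032.S5.H410.RStrong
import Vale.Agent.P032.S5.H229.K5
import Vale.Agent.P032.H416.DF
import Vale.Agent.P032.H403.DFin

/-!
# P032: the world without complementary plain ends at two-pair points

`noComp_iff` : `NoComp T` means: a common neighbour `c` (not the midpoint) of two points with
complementary palettes of three colours has one of the two palettes in its own palette; so the
two-pair points, clean or not, have no complementary plain ends, except opposite ones.

`no5_of_nc` : in the world `Irr`, `Mn`, `NoPair5`, `NoComp` there is no point with five colours.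
`rs_of_nc` : and the complement rule holds at the points with six colours.
-/

open Set Filter Topology Metric

noncomputable section

namespace Vale.Agent.P032.Six

open Vale.Agent.P032.S5.H843 Vale.Agent.P032.S5.H926 Vale.Agent.P032.S5.H450

variable {U : Fin 6 → Set ℂ} {T : ℂ → Set (Fin 6)}

/-- the form with the nodes of complementary networks: there is no node which is light at both
ends -/
theorem noComp_iff (h : Irr U T) : NoComp T ↔
    ∀ X c v q, Nd T X c v q → ∀ a ∈ X, a ∉ T c → ∀ d ∈ Xᶜ, d ∉ T c → False := by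
  symm
  constructor
  · intro H z h4 v q hv hq hv3 hvq
    by_contra hne
    have N : Nd T (T v) z v q := ⟨hv3, by rw [dist_comm]; exact hv, by rw [dist_comm]; exact hq,
      rfl, hvq, hne⟩
    have hsum : (T z ∩ T v).ncard + (T z ∩ (T v)ᶜ).ncard = 4 := by
      rw [← h4, ← Set.ncard_union_eq (by
        rw [Set.disjoint_left]; exact fun i hi hi' => hi'.2 hi.2) (Set.toFinite _)
        (Set.toFinite _)]
      congr 1
      ext i; simp only [mem_union, mem_inter_iff, mem_compl_iff]; tauto
    -- two colours of each at `z`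
    obtain ⟨t1, a1, a2, -⟩ := N.five h 0
    obtain ⟨t2, b1, b2, b3⟩ := N.five h t1
    obtain ⟨s1, c1, c2, -⟩ := N.swap.five h 0
    obtain ⟨s2, d1, d2, d3⟩ := N.swap.five h s1
    have e1 : 2 ≤ (T z ∩ T v).ncard := by
      rw [← Set.ncard_pair b3.symm]
      refine Set.ncard_le_ncard ?_ (Set.toFinite _)
      rintro i (rfl | rfl)
      exacts [⟨a1, a2⟩, ⟨b1, b2⟩]
    have e2 : 2 ≤ (T z ∩ (T v)ᶜ).ncard := by
      rw [← Set.ncard_pair d3.symm]
      refine Set.ncard_le_ncard ?_ (Set.toFinite _)
      rintro i (rfl | rfl)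
      exacts [⟨c1, c2⟩, ⟨d1, d2⟩]
    have hx : ¬ T v ⊆ T z := fun hsub => by
      rw [inter_eq_right.2 hsub, hv3] at hsum
      omega
    have hy : ¬ (T v)ᶜ ⊆ T z := fun hsub => by
      rw [inter_eq_right.2 hsub, N.hXc] at hsum
      omega
    obtain ⟨a, ha, haz⟩ := not_subset.1 hx
    obtain ⟨d, hd, hdz⟩ := not_subset.1 hy
    exact H _ _ _ _ N a ha haz d hd hdz
  · intro H X c v q N a ha hac d hd hdc
    refine N.op (H c ?_ v q (by rw [dist_comm]; exact N.dv) (by rw [dist_comm]; exact N.dq)
      (by rw [N.Tv]; exact N.hX) (by rw [N.Tq, N.Tv]))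
    obtain ⟨a', b', c', d', hD⟩ := S5.H122.dpt_of_light h N ha hac hd hdc
    exact four_of_DPt hD

/-- **no points with five colours** -/
theorem no5_of_nc (h : Irr U T) (hmin : Mn U T) (h5 : NoPair5 T) (hN : NoComp T) (z : ℂ) :
    (T z).ncard ≠ 5 := fun hz =>
  S5.H229.no_five_gen h hmin
    (fun X c v x a d N ha hac hd hdc => ((noComp_iff h).1 hN X c v x N a ha hac d hd hdc).elim)
    hz fun y hy => by
      by_contra hcon
      exact h5 z y (by rw [dist_comm]; exact hy) (by omega) (by omega)

/-- **the complement rule** at the points with six colours -/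
theorem rs_of_nc (h : Irr U T) (hN : NoComp T) (h5 : ∀ z, (T z).ncard ≠ 5)
    {z : ℂ} (h6 : (T z).ncard = 6) {X : Set (Fin 6)} (hX : X.ncard = 3) {v q : ℂ}
    (hv : dist v z = 1) (hq : dist q z = 1) (hTv : T v = X) (hTq : T q = Xᶜ) :
    v + q = 2 * z := by
  by_contra hne
  have hz : T z = univ := by
    refine Set.eq_of_subset_of_ncard_le (subset_univ _) ?_ (Set.toFinite _)
    rw [Set.ncard_univ, Nat.card_eq_fintype_card, Fintype.card_fin, h6]
  refine S5.H410.heavy_false h hz (⟨hX, by rw [dist_comm]; exact hv, by rw [dist_comm]; exact hq,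
    hTv, hTq, hne⟩ : Nd T X z v q) fun v' q' N' => ?_
  rcases S5.H410.cases_w h N' with h1 | h1 | ⟨⟨s, hs, hsw⟩, t, ht, htw⟩
  · exact h1
  · exact absurd h1 (h5 _)
  · exact ((noComp_iff h).1 hN X _ v' q' N'.other s hs hsw t ht htw).elim

end Vale.Agent.P032.Six
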