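import Vale.Agent.P032.H416.Clean
import Vale.Agent.P032.H416.Act6
import Vale.Agent.P032.H416.Glue
import Vale.Agent.P032.H416.Props2

/-!
# P032: the top of the full theorem, second form

World: `Irr U T`, `Mn U T`.  Blocks (literal statements in `Props`, `Props2`):
`Pair5` : no unit pair of a point with at least five colours and a point with at least four;
`NoCompB` : then two-pair points (clean or not) have no complementary plain ends;
`Sil6N` : then, without points with five colours, a clean point with six colours has no silent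
colour;
`FullB` : then, with at most four colours everywhere and a locally finite set of two-pair points,
a two-pair point with a four coloured point on its circle is full;
`ParB` : and the parity lemma holds at full points;
`ChainB` : and there are no chains.
-/

open Set Filter Topology Metric

noncomputable section

namespace Vale.Agent.P032.Six

open Vale.Agent.P032.S5.H843 Vale.Agent.P032.S5.H926 Vale.Agent.P032.S5.H450
  Vale.Agent.P032.Words6

/-- at most four colours -/
theorem le4_of_nc (htab : ∀ L ∈ H122.Lets35, H358.TreeOK L) (HS : Sil6N)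
    {U : Fin 6 → Set ℂ} {T : ℂ → Set (Fin 6)} (h : Irr U T) (hmin : Mn U T) (h5 : NoPair5 T)
    (hN : NoComp T) (z : ℂ) : (T z).ncard ≤ 4 := by
  have hn := no5_of_nc h hmin h5 hN
  by_contra hcon
  have h6 : (T z).ncard = 6 := by
    have h1 := ncard_le_six (T z)
    have h2 := hn z
    omega
  have hcl : ∀ y, dist y z = 1 → (T y).ncard ≤ 3 := by
    intro y hy
    by_contra hcon'
    exact h5 z y (by rw [dist_comm]; exact hy) (by omega) (by omega)
  refine no_six_rs htab h hmin h6 hcl
    (fun X hX v q hv hq hTv hTq => rs_of_nc h hN hn h6 hX hv hq hTv hTq) fun i => ?_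
  by_contra hc
  push Not at hc
  exact HS U T h hmin h5 hN hn z h6 hcl i fun q h1 h2 => hc q h1 h2

/-- the frame `DF` -/
theorem df_of_nc (htab : ∀ L ∈ H122.Lets35, H358.TreeOK L) (HS : Sil6N)
    {U : Fin 6 → Set ℂ} {T : ℂ → Set (Fin 6)} (h : Irr U T) (hmin : Mn U T) (h5 : NoPair5 T)
    (hN : NoComp T) : DF U T :=
  have h4 := le4_of_nc htab HS h hmin h5 hN
  ⟨h, hmin, h4, fun c R => (h.finite_D hmin h4 c R).subset fun _ hz => ⟨hz.2, mem_closedBall.2 hz.1⟩⟩

/-- **no frame `DF` without complementary ends**, from the blocks on chains -/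
theorem no_df_nc (HF : FullB) (HP : ParB) (HC : ChainB) {U : Fin 6 → Set ℂ}
    {T : ℂ → Set (Fin 6)} (h : DF U T) (hN : NoComp T) : False := by
  have hF : ∀ z, (∃ a b c d, DPt T z a b c d) → FullP T z := fun z hz => by
    obtain ⟨v, hv, hv4⟩ := not_clean_of_nc h.irr h.le4 hN hz
    exact HF U T h hN z v hz hv hv4
  obtain ⟨z, a, b, c, d, hD, y, hy, hy4⟩ := h.irr.exists_dpair' h.mn h.le4
  obtain ⟨V, ρ, S, C, -, J⟩ := exists_JCh h.irr (fun z hz _ => (hF z hz).1)
    ⟨a, b, c, d, hD⟩ hy hy4.ge
  exact HC U T h hN hF (HP U T h hN hF) V ρ S C J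

/-- **no frame**, from the blocks -/
theorem no_frame2 (htab : ∀ L ∈ H122.Lets35, H358.TreeOK L) (P5 : Pair5) (NC : NoCompB)
    (HS : Sil6N) (HF : FullB) (HP : ParB) (HC : ChainB)
    {U : Fin 6 → Set ℂ} {T : ℂ → Set (Fin 6)} (h : Irr U T) (hmin : Mn U T) : False :=
  have h5 := P5 U T h hmin
  have hN := NC U T h hmin h5
  no_df_nc HF HP HC (df_of_nc htab HS h hmin h5 hN) hN

/-- **no six open sets in the plane** (the full theorem), from the blocks -/
theorem no_six2 (htab : ∀ L ∈ H122.Lets35, H358.TreeOK L) (P5 : Pair5) (NC : NoCompB)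
    (HS : Sil6N) (HF : FullB) (HP : ParB) (HC : ChainB)
    (V : Fin 6 → Set ℂ) (hV : ∀ i, IsOpen (V i))
    (hfree : ∀ i, ∀ x ∈ V i, ∀ y ∈ V i, dist x y ≠ 1) (hd : Dense (⋃ i, V i)) : False := by
  obtain ⟨U, T, h1, h2, -⟩ := exists_frame_of V hV hfree hd
  exact no_frame2 htab P5 NC HS HF HP HC h1 h2

/-- **the chromatic number of the plane is seven**, from the blocks -/
theorem chi_seven (htab : ∀ L ∈ H122.Lets35, H358.TreeOK L) (P5 : Pair5) (NC : NoCompB)
    (HS : Sil6N) (HF : FullB) (HP : ParB) (HC : ChainB) :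
    H999.unitDist.chromaticNumber = 7 :=
  H999.chromaticNumber_eq_seven (not_hasCol_six fun _ _ h hmin =>
    no_frame2 htab P5 NC HS HF HP HC h hmin)

end Vale.Agent.P032.Six
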