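import Vale.Agent.P032.H416.Top2
import Vale.Agent.P032.H416.Full3
import Vale.Agent.P032.H416.Pair5
import Vale.Agent.P032.Words6.H926.Tab35

/-!
# P032: the top of the full theorem, third form: four blocks

World: `Irr U T`, `Mn U T`.  Blocks (literal statements in `Props`, `Full3`):
`Pair5` : no unit pair of a point with at least five colours and a point with at least four;
`NoCompB` : then two-pair points (clean or not) have no complementary plain ends;
`Sil6N` : then, without points with five colours, a clean point with six colours has no silent
colour;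
`SameB` : then, with at most four colours everywhere and a locally finite set of two-pair points,
a four coloured point on the circle of a two-pair point has the palette of the two-pair point.
-/

open Set Filter Topology Metric

noncomputable section

namespace Vale.Agent.P032.Six

open Vale.Agent.P032.S5.H843 Vale.Agent.P032.S5.H926 Vale.Agent.P032.Words6

/-- **no frame without unit pairs (5, 4)**, from three blocks -/
theorem no_frame_nopair5 (NC : NoCompB) (HS : Sil6N) (HX : SameB)
    {U : Fin 6 → Set ℂ} {T : ℂ → Set (Fin 6)} (h : Irr U T) (hmin : Mn U T) (h5 : NoPair5 T) :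
    False :=
  have hN := NC U T h hmin h5
  no_df_nc (fullB_of_same HX) H695.parB chainB (df_of_nc H926.tab35 HS h hmin h5 hN) hN

/-- **unit pairs (5, 4) in maximal families**, from three blocks -/
theorem exists_pair5 (NC : NoCompB) (HS : Sil6N) (HX : SameB)
    {U : Fin 6 → Set (EuclideanSpace ℝ (Fin 2))}
    (hU : ∀ i, Maximal (fun W : Set (EuclideanSpace ℝ (Fin 2)) =>
      IsOpen W ∧ ∀ x ∈ W, ∀ y ∈ W, dist x y ≠ 1) (U i))
    (hd : Dense (⋃ i, U i)) :
    ∃ z z', dist z z' = 1 ∧ z ∈ XU U 4 ∧ z' ∈ XU U 3 :=
  exists_pair5_of hU hd fun _ _ h hmin h5 => no_frame_nopair5 NC HS HX h hmin h5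

/-- **the chromatic number of the plane is seven**, from four blocks -/
theorem chi_seven4 (P5 : Pair5) (NC : NoCompB) (HS : Sil6N) (HX : SameB) :
    H999.unitDist.chromaticNumber = 7 :=
  H999.chromaticNumber_eq_seven (not_hasCol_six fun U T h hmin =>
    no_frame_nopair5 NC HS HX h hmin (P5 U T h hmin))

end Vale.Agent.P032.Six
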