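import Vale.Agent.P032.H416.Top3
import Vale.Agent.P032.H416.TopA

/-!
# P032: the top without the blocks `Pair5` and `SameB`
-/

open Set Filter Topology Metric

noncomputable section

namespace Vale.Agent.P032.Six

open Vale.Agent.P032.S5.H843 Vale.Agent.P032.S5.H926 Vale.Agent.P032.Words6

/-- **no frame `DF` without complementary ends in which the four coloured points at distance one
from two-pair points have the palette of the two-pair point** -/
theorem no_df_same {U : Fin 6 → Set ℂ} {T : ℂ → Set (Fin 6)} (h : DF U T) (hN : NoComp T)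
    (hJ : ∀ z v, (∃ a b c d, DPt T z a b c d) → dist v z = 1 → (T v).ncard = 4 → T v = T z) :
    False := by
  have hF : ∀ z, (∃ a b c d, DPt T z a b c d) → FullP T z := fun z hz =>
    fullP_of_same h.irr hN hz fun y hy hy4 => hJ z y hz hy (le_antisymm (h.le4 y) hy4)
  obtain ⟨z, a, b, c, d, hD, y, hy, hy4⟩ := h.irr.exists_dpair' h.mn h.le4
  obtain ⟨V, ρ, S, C, -, J⟩ := exists_JCh h.irr (fun z hz _ => (hF z hz).1)
    ⟨a, b, c, d, hD⟩ hy hy4.ge
  exact chainB U T h hN hF (H695.parB U T h hN hF) V ρ S C J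

/-- **unit pairs in maximal families**, from two blocks -/
theorem exists_pair4 (NC : NoCompB) (HS : Sil6N)
    {U : Fin 6 → Set (EuclideanSpace ℝ (Fin 2))}
    (hU : ∀ i, Maximal (fun W : Set (EuclideanSpace ℝ (Fin 2)) =>
      IsOpen W ∧ ∀ x ∈ W, ∀ y ∈ W, dist x y ≠ 1) (U i))
    (hd : Dense (⋃ i, U i)) :
    ∃ z z', dist z z' = 1 ∧ ((z ∈ XU U 4 ∧ z' ∈ XU U 3) ∨
      ∃ S S' : Set (Fin 6), S ≠ S' ∧ DSU U S z ∧ MSU U S' z') :=
  exists_pair_of hU hd fun V T h hmin h5 hJ =>
    have hN := NC V T h hmin h5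
    no_df_same (df_of_nc H926.tab35 HS h hmin h5 hN) hN hJ

end Vale.Agent.P032.Six
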