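import Vale.Agent.P032.H416.XDef0
import Vale.Agent.P032.H416.Top2
import Vale.Agent.P032.H416.Pair5
import Vale.Agent.P032.H396.SilTop
import Vale.Agent.P032.Words6.H926.Tab35
import Vale.Agent.P032.H416.TopA

/-!
# P032: the top of the full theorem, fifth form: three blocks

World: `Irr U T`, `Mn U T`.  Blocks:
`Pair5` : no unit pair of a point with at least five colours and a point with at least four;
`NoCompB` : then no complementary, non-opposite palettes of three colours on the circle of a point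
with four colours;
`XB` : no frame `DF` (at most four colours, locally finite set of two-pair points) with `NoComp`.

`chi_seven5` : the chromatic number of the plane is seven, from the three blocks;
`exists_pair5X` : unit pairs (5, 4) in maximal families, from `NoCompB` and `XB`;
`exists_pair_comp` : from `XB` alone: every maximal family of six open sets without unit distances
and with dense union has a unit pair of a point near which no four of the sets suffice and a point
near which no three suffice, or complementary triples of indices at two points of the unit circle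
about a point near which four of the sets suffice.
-/

open Set Filter Topology Metric

noncomputable section

namespace Vale.Agent.P032.Six

open Vale.Agent.P032.S5.H843 Vale.Agent.P032.S5.H926 Vale.Agent.P032.Words6
  Vale.Agent.P032.S5.H138

/-- the frame `DF` -/
theorem df_of_nc' {U : Fin 6 → Set ℂ} {T : ℂ → Set (Fin 6)} (h : Irr U T) (hmin : Mn U T)
    (h5 : NoPair5 T) (hN : NoComp T) : DF U T :=
  df_of_nc H926.tab35 H396.sil6N h hmin h5 hN

/-- **no frame without unit pairs (5, 4)**, from two blocks -/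
theorem no_frame_x (NC : NoCompB) (HX : XB) {U : Fin 6 → Set ℂ} {T : ℂ → Set (Fin 6)}
    (h : Irr U T) (hmin : Mn U T) (h5 : NoPair5 T) : False :=
  have hN := NC U T h hmin h5
  HX U T (df_of_nc' h hmin h5 hN) hN

/-- **unit pairs (5, 4) in maximal families**, from two blocks -/
theorem exists_pair5X (NC : NoCompB) (HX : XB)
    {U : Fin 6 → Set (EuclideanSpace ℝ (Fin 2))}
    (hU : ∀ i, Maximal (fun W : Set (EuclideanSpace ℝ (Fin 2)) =>
      IsOpen W ∧ ∀ x ∈ W, ∀ y ∈ W, dist x y ≠ 1) (U i))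
    (hd : Dense (⋃ i, U i)) :
    ∃ z z', dist z z' = 1 ∧ z ∈ XU U 4 ∧ z' ∈ XU U 3 :=
  exists_pair5_of hU hd fun _ _ h hmin h5 => no_frame_x NC HX h hmin h5

/-- **no six open sets in the plane**, from three blocks -/
theorem no_six5 (P5 : Pair5) (NC : NoCompB) (HX : XB)
    (V : Fin 6 → Set ℂ) (hV : ∀ i, IsOpen (V i))
    (hfree : ∀ i, ∀ x ∈ V i, ∀ y ∈ V i, dist x y ≠ 1) (hd : Dense (⋃ i, V i)) : False := by
  obtain ⟨U, T, h1, h2, -⟩ := exists_frame_of V hV hfree hd
  exact no_frame_x NC HX h1 h2 (P5 U T h1 h2)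

/-- **the chromatic number of the plane is seven**, from three blocks -/
theorem chi_seven5 (P5 : Pair5) (NC : NoCompB) (HX : XB) :
    H999.unitDist.chromaticNumber = 7 :=
  H999.chromaticNumber_eq_seven (not_hasCol_six fun U T h hmin =>
    no_frame_x NC HX h hmin (P5 U T h hmin))

/-! ### the statement from block X alone -/

/-- the sets `U i`, `i ∈ S`, suffice near `x` -/
def SufU {E : Type*} [PseudoMetricSpace E] (U : Fin 6 → Set E) (S : Set (Fin 6)) (x : E) : Prop :=
  x ∉ closure ((⋃ j, U j) \ ⋃ i ∈ S, U i)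

/-- **Statement in the plane.** -/
theorem exists_pair_comp (HX : XB) {U : Fin 6 → Set (EuclideanSpace ℝ (Fin 2))}
    (hU : ∀ i, Maximal (fun W : Set (EuclideanSpace ℝ (Fin 2)) =>
      IsOpen W ∧ ∀ x ∈ W, ∀ y ∈ W, dist x y ≠ 1) (U i))
    (hd : Dense (⋃ i, U i)) :
    (∃ z z', dist z z' = 1 ∧ z ∈ XU U 4 ∧ z' ∈ XU U 3) ∨
      ∃ z v q, ∃ S X : Set (Fin 6), MSU U S z ∧ X.ncard = 3 ∧ dist v z = 1 ∧ dist q z = 1 ∧
        v ≠ q ∧ dist v q < 2 ∧ SufU U X v ∧ SufU U Xᶜ q := by
  by_contra hcon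
  push Not at hcon
  obtain ⟨hcon1, hcon2⟩ := hcon
  let φ : ℂ ≃ₗᵢ[ℝ] EuclideanSpace ℝ (Fin 2) := Complex.orthonormalBasisOneI.repr
  have hcl : ∀ S : Set (EuclideanSpace ℝ (Fin 2)), closure (φ ⁻¹' S) = φ ⁻¹' closure S :=
    fun S => (φ.toHomeomorph.preimage_closure S).symm
  have hdf : ∀ s : Set (Fin 6), ((⋃ j, φ ⁻¹' U j) \ ⋃ i ∈ s, φ ⁻¹' U i) =
      φ ⁻¹' ((⋃ j, U j) \ ⋃ i ∈ s, U i) := by
    intro s
    rw [preimage_sdiff, preimage_iUnion, preimage_iUnion₂]
  have hcdf : ∀ (s : Set (Fin 6)) (z : ℂ),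
      z ∈ closure ((⋃ j, φ ⁻¹' U j) \ ⋃ i ∈ s, φ ⁻¹' U i) ↔
      φ z ∈ closure ((⋃ j, U j) \ ⋃ i ∈ s, U i) := by
    intro s z
    rw [hdf, hcl]
    rfl
  have hX : ∀ n z, z ∈ XU (fun i => φ ⁻¹' U i) n → φ z ∈ XU U n := by
    intro n z hz s hs
    exact (hcdf s z).1 (hz s hs)
  have hd' : Dense (⋃ i, φ ⁻¹' U i) := by
    rw [← preimage_iUnion]
    exact hd.preimage φ.toHomeomorph.isOpenMap
  obtain ⟨T, h1, h2, h3⟩ := exists_T_pair5 (U := fun i => φ ⁻¹' U i)
    (fun i => maximal_preimage (hU i) φ) hd' fun z hz v hv hzv =>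
      hcon1 (φ z) (φ v) (by rw [φ.dist_map]; exact hzv) (hX 4 z hz) (hX 3 v hv)
  have hMSU : ∀ S z, MSU (fun i => φ ⁻¹' U i) S z → MSU U S (φ z) := by
    rintro S z ⟨h1, h2, h3⟩
    exact ⟨h1, fun h4 => h2 ((hcdf S z).2 h4), fun s hs => (hcdf s z).1 (h3 s hs)⟩
  have hsuf : ∀ z, SufU U (T z) (φ z) := fun z hz => Irr_suff h1 z ((hcdf _ z).2 hz)
  have hN : NoComp T := by
    intro z h4 v q hv hq hv3 hq3
    by_contra hne
    have hvq : v ≠ q := by
      intro hvq
      rw [← hvq] at hq3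
      obtain ⟨i, hi⟩ := Set.nonempty_of_ncard_ne_zero (by rw [hv3]; norm_num : (T v).ncard ≠ 0)
      have h5 : i ∈ (T v)ᶜ := hq3 ▸ hi
      exact h5 hi
    have hlt : dist v q < 2 := by
      have h5 : dist v q ≤ 2 := by
        have := dist_triangle_right v q z
        linarith
      refine lt_of_le_of_ne h5 fun h6 => hne ?_
      have h7 : ‖(v - z) + (-(q - z))‖ = ‖v - z‖ + ‖-(q - z)‖ := by
        rw [← sub_eq_add_neg, norm_neg, sub_sub_sub_cancel_right, ← dist_eq_norm, ← dist_eq_norm,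
          ← dist_eq_norm, h6, hv, hq]
        norm_num
      have h9 : SameRay ℝ (v - z) (-(q - z)) := sameRay_iff_norm_add.2 h7
      have h10 : v - z = -(q - z) := by
        refine (h9.norm_eq_iff).1 ?_
        rw [norm_neg, ← dist_eq_norm, ← dist_eq_norm, hv, hq]
      linear_combination h10
    exact hcon2 (φ z) (φ v) (φ q) (T z) (T v) (hMSU _ _ (MSU_of_frame h1 h2 hd' h4)) hv3
      (by rw [φ.dist_map]; exact hv) (by rw [φ.dist_map]; exact hq) (φ.injective.ne hvq)
      (by rw [φ.dist_map]; exact hlt) (hsuf v) (hq3 ▸ hsuf q)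
  exact HX _ T (df_of_nc' h1 h2 h3 hN) hN

end Vale.Agent.P032.Six
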