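import Vale.Agent.P032.H416.XTop
import Vale.Agent.P032.H802.ChainI
import Vale.Agent.P032.H758.Win
import Vale.Agent.P032.H274.XC

/-!
# P032, block X: the chain of the world `QIW` with its state functions

`GaugeI T Inv f` : the gauge over `QI`; `exists_gaugeI`.
`ChI.chn` : the chain in the form `Chn758`.
`Zeros416` : the zeros and the parity of the states (hypotheses of `Chn758.win758`).
`ChI.pure416` : all links are `2` (STAY) or all links are `5` (SWITCH).
-/

open Set Filter Topology Metric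

noncomputable section

namespace Vale.Agent.P032.Six

open Vale.Agent.P032.S5 Vale.Agent.P032.Carr Vale.Agent.P032.H961

variable {U : Fin 6 → Set ℂ} {T : ℂ → Set (Fin 6)} {Inv : ℂ → ℂ → Prop} {f : ℂ → Set (Fin 6)}
  {Z : Set ℂ} {c : ℂ} {R δ₀ : ℝ} {V : ℤ → ℂ} {l : ℤ → Fin 6} {name : ℤ → Fin 6 → Fin 6}

/-- the gauge over `QI` : the separated pair of a quasi-full point is the pair which does not
connect -/
structure GaugeI (T : ℂ → Set (Fin 6)) (Inv : ℂ → ℂ → Prop) (f : ℂ → Set (Fin 6)) : Prop where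
  ch : ChF T f
  qf : ∀ {V V1 V2 : ℂ} {a b m n e g : Fin 6}, QI T Inv V a b m n e g V1 V2 → f V = {m, n}

theorem GaugeI.diff (G : GaugeI T Inv f) {V V1 V2 : ℂ} {a b m n e g : Fin 6}
    (hV : QI T Inv V a b m n e g V1 V2) : T V \ f V = {a, b} := by
  rw [G.qf hV]
  exact hV.dpt.diff758

theorem DPt.diff758' {z : ℂ} {a b c d : Fin 6} (hz : DPt T z a b c d) : T z \ {a, b} = {c, d} :=
  hz.swap.diff758

theorem exists_gaugeI (h : Irr U T) (H : QIW T Inv) : ∃ f, GaugeI T Inv f := by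
  classical
  have key : ∀ V : ℂ, ∃ S : Set (Fin 6), (∃ a b c d, DPt T V a b c d) →
      ∃ (a b m n e g : Fin 6) (V1 V2 : ℂ), QI T Inv V a b m n e g V1 V2 ∧ S = {m, n} := by
    intro V
    by_cases hV : ∃ a b c d, DPt T V a b c d
    · obtain ⟨a, b, c, d, hD⟩ := hV
      obtain ⟨a, b, m, n, e, g, V1, V2, hq⟩ := H.qf hD
      exact ⟨{m, n}, fun _ => ⟨a, b, m, n, e, g, V1, V2, hq, rfl⟩⟩
    · exact ⟨∅, fun h => absurd h hV⟩
  choose G hG using key
  obtain ⟨f, hf, hf2⟩ := exists_ChF T G (fun z a b c d hz => by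
    obtain ⟨a', b', m', n', e', g', V1', V2', h2, h3⟩ := hG z ⟨a, b, c, d, hz⟩
    rw [h3]
    rcases h.pairs758 hz h2.dpt with h4 | h4
    · exact Or.inr h4.2
    · exact Or.inl h4.2)
  refine ⟨f, hf, fun {V V1 V2 a b m n e g} hV => ?_⟩
  rw [hf2 V ⟨a, b, m, n, hV.dpt⟩]
  obtain ⟨a', b', m', n', e', g', V1', V2', h2, h3⟩ := hG V ⟨a, b, m, n, hV.dpt⟩
  rw [h3, ← h2.dpt.diff758', ← hV.dpt.diff758', H.pair_unique h hV h2]

/-- the chain in the form `Chn758` -/
theorem ChI.chn (h : Irr U T) (hw : QIW T Inv) (G : GaugeI T Inv f)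
    {nx : Fin 6 → Fin 6 → Fin 6} (hC : ChI nx T Inv V l name) : Chn758 nx T f V l name where
  inj := fun j => nodup_inj758 (hC.qf j).nd
  dpt := fun j => (hC.qf j).dpt
  gau := fun j => G.qf (hC.qf j)
  memR := fun j => (hC.qf j).toQI0.mem1 h
  memL := fun j => (hC.qf j).toQI0.mem2 h
  conn := fun j => by
    obtain ⟨s, t, -, -, -, -, h5⟩ := (hC.qf j).toQI0.arc' h
    rw [h5]
    exact isPreconnected_Icc.image _ (S5.H767.continuous_pt _).continuousOn
  inv := fun j z hz hD hz1 hz2 t u ht hu hne => by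
    obtain ⟨a, b, c, d, hD⟩ := hD
    rcases (hC.qf j).ord z hz hD.ncard.ge with h1 | h1 | h1
    · exact hz1 h1
    · exact hz2 h1
    · obtain ⟨a', b', m', n', e', g', W1, W2, hq⟩ := hw.qf hD
      rw [G.diff hq] at hne
      have hmem : ∀ r : Fin 6, r < 4 → name j r ∈ T (V j) := by
        intro r hr
        rw [(hC.qf j).dpt.pal]
        have : r = 0 ∨ r = 1 ∨ r = 2 ∨ r = 3 := by revert hr; revert r; decide
        rcases this with rfl | rfl | rfl | rfl <;> simp
      have ht4 : name j t ∈ T (V j) := hmem t (by rcases ht with rfl | rfl <;> decide)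
      have hu4 : name j u ∈ T (V j) := hmem u (by rcases hu with rfl | rfl <;> decide)
      have ha : a' ∈ T (V j) := by
        have : a' ∈ ({name j t, name j u} : Set (Fin 6)) := by rw [← hne]; simp
        rcases this with h2 | h2 <;> rw [h2] <;> assumption
      have hb : b' ∈ T (V j) := by
        have : b' ∈ ({name j t, name j u} : Set (Fin 6)) := by rw [← hne]; simp
        rcases this with h2 | h2 <;> rw [h2] <;> assumption
      exact hw.inv h1 hz hq ha hb
  nm := hC.nm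

/-- the zeros and the parity of the states of the world `QIW`, for a gauge `f` -/
structure Zeros416 (U : Fin 6 → Set ℂ) (T : ℂ → Set (Fin 6)) (Inv : ℂ → ℂ → Prop)
    (f : ℂ → Set (Fin 6)) : Prop where
  par : ∀ {Z : Set ℂ} {c : ℂ} {R δ₀ : ℝ}, DSt U T Z f c R δ₀ →
    ∀ {V V1 V2 : ℂ} {a b m n e g : Fin 6}, QI T Inv V a b m n e g V1 V2 → dist V c ≤ R - 1 →
    lamT T Z f δ₀ a V e g + lamT T Z f δ₀ b V e g + lamT T Z f δ₀ m V e g +
      lamT T Z f δ₀ n V e g = 1
  hz1 : ∀ {V V1 V2 : ℂ} {a b m n e g : Fin 6}, QI T Inv V a b m n e g V1 V2 →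
    ∀ t, t = a ∨ t = b → NoF758 T f V {a, b, e} t
  hz2 : ∀ {V : ℤ → ℂ} {l : ℤ → Fin 6} {name : ℤ → Fin 6 → Fin 6},
    ChI nxR802 T Inv V l name → ∀ j k : ℤ, (k = j + 1 ∨ k = j - 1 ∨ k = j + 2 ∨ k = j - 2) →
    ∀ r : Fin 6, (r = 2 ∨ r = 3) → ∀ t : Fin 6,
      t ∈ ({name k r, name k 4, name k 5} : Set (Fin 6)) → t ∈ T (V j) →
      NoF758 T f (V j) {name k r, name k 4, name k 5} t

/-- the window of the state functions -/
theorem ChI.win416 (h : DF U T) (hw : QIW T Inv) (G : GaugeI T Inv f) (Zr : Zeros416 U T Inv f)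
    (hC : ChI nxR802 T Inv V l name) (a : ℤ) {n : ℕ} {Z : Set ℂ} {c : ℂ} {R δ₀ : ℝ}
    (D : DSt U T Z f c R δ₀) (hb : ∀ i : ℕ, i ≤ n → dist (V (a + i)) c ≤ R - 2) :
    H274.Win n (fun i : ℕ => (l (a + i)).val) (fun j : ℕ => NN758 T Z f δ₀ V name (a + j)) := by
  have hN := hC.chn h.irr hw G
  refine hN.win758 D a n hb ?_ ?_ ?_
  · intro i _ hin
    exact Zr.par D (hC.qf (a + i)) (by linarith [hb i hin.le])
  · intro i _ _ r hr t ht
    have hq := hC.qf (a + i)
    rcases hr with rfl | rfl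
    · refine Zr.hz1 hq _ ?_
      rcases ht with rfl | rfl
      · exact Or.inl rfl
      · exact Or.inr rfl
    · refine Zr.hz1 hq.swapEF _ ?_
      rcases ht with rfl | rfl
      · exact Or.inl rfl
      · exact Or.inr rfl
  · intro i _ _ k hk r hr t ht ht'
    exact Zr.hz2 hC (a + i) k hk r hr t ht ht'

theorem ChI.chw416 (h : DF U T) (hw : QIW T Inv) (G : GaugeI T Inv f) (Zr : Zeros416 U T Inv f)
    (hC : ChI nxR802 T Inv V l name) : H274.ChW fun j => (l j).val where
  lt := fun j => (l j).isLt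
  win := fun a => by
    obtain ⟨Z, δ₀, D⟩ := h.exists_DS G.ch (V a) 10
    refine ⟨_, hC.win416 h hw G Zr a D fun i hi => ?_⟩
    have h1 := (hC.chn h.irr hw G).dist_le a i
    have h2 : (i : ℝ) ≤ 8 := by exact_mod_cast hi
    linarith

/-- **the chain is pure** -/
theorem ChI.pure416 (h : DF U T) (hw : QIW T Inv) (G : GaugeI T Inv f) (Zr : Zeros416 U T Inv f)
    (hC : ChI nxR802 T Inv V l name) : (∀ j, l j = 2) ∨ ∀ j, l j = 5 := by
  rcases (hC.chw416 h hw G Zr).pure with h1 | h1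
  · exact Or.inl fun j => Fin.ext (h1 j)
  · exact Or.inr fun j => Fin.ext (h1 j)

/-- the two-pair points are locally finite -/
theorem DF.fin416 (h : DF U T) (R : ℝ) :
    ({z | ∃ a b c d, DPt T z a b c d} ∩ closedBall 0 R).Finite := by
  refine (h.fin 0 R).subset ?_
  rintro z ⟨h1, h2⟩
  exact ⟨mem_closedBall.1 h2, h1⟩

/-- **all links are STAY, new colour `f`** -/
theorem ChI.stay416 (h : DF U T) (hw : QIW T Inv) (G : GaugeI T Inv f) (Zr : Zeros416 U T Inv f)
    (hC : ChI nxR802 T Inv V l name) : ∀ j, l j = 2 := by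
  rcases hC.pure416 h hw G Zr with h1 | h1
  · exact h1
  · exact (hC.no_switchR802 h.irr hw (fun j => Or.inr (Or.inr (h1 j))) h.fin416).elim

/-- the zeros of the pure world -/
def XZeros : Prop := ∀ (U : Fin 6 → Set ℂ) (T : ℂ → Set (Fin 6)), DF U T → NoComp T →
  QIW T NoInv → ∀ f, GaugeI T NoInv f → Zeros416 U T NoInv f

/-- the all-STAY chains of the pure world -/
def XStay : Prop := ∀ (U : Fin 6 → Set ℂ) (T : ℂ → Set (Fin 6)), DF U T → NoComp T →
  QIW T NoInv → ∀ f, GaugeI T NoInv f → Zeros416 U T NoInv f →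
  (∀ V l name, ChI nxR802 T NoInv V l name → ∀ j, l j = 2) →
  ∀ V l name, ¬ ChI nxR802 T NoInv V l name

/-- **the pure world** from its zeros and the end of the all-STAY chains -/
theorem xPure_of (HZ : XZeros) (HS : XStay) : XPure := fun U T h hN hw V₀ a b c d hD => by
  obtain ⟨f, G⟩ := exists_gaugeI h.irr hw
  have Zr := HZ U T h hN hw f G
  obtain ⟨V, l, name, hC, -⟩ := exists_chIR hw hD
  exact HS U T h hN hw f G Zr (fun V l name hC => hC.stay416 h hw G Zr) V l name hC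

end Vale.Agent.P032.Six
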