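import Vale.Agent.P032.H416.Props

/-!
# P032: the literal statements of block X and its variants (light imports)

`XB`, `XCov`, `XSplit`, `XDeg`, `XDegC` with their worlds `NoCov`, `NoSplit`, `NoThree`.
-/

open Set Filter Topology Metric

noncomputable section

namespace Vale.Agent.P032.Six

/-- block X: no frame `DF` without complementary palettes -/
def XB : Prop := ∀ (U : Fin 6 → Set ℂ) (T : ℂ → Set (Fin 6)), DF U T → NoComp T → False

/-- no covering pairs: two points at distance one with at least four colours have a common missing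
colour -/
def NoCov (T : ℂ → Set (Fin 6)) : Prop :=
  ∀ z y, dist z y = 1 → 4 ≤ (T z).ncard → 4 ≤ (T y).ncard → ∃ i, i ∉ T z ∧ i ∉ T y

/-- block X without covering pairs -/
def XCov : Prop := ∀ (U : Fin 6 → Set ℂ) (T : ℂ → Set (Fin 6)), DF U T → NoComp T → NoCov T →
  False

/-- block NC without covering pairs -/
def NoCompCov : Prop := ∀ (U : Fin 6 → Set ℂ) (T : ℂ → Set (Fin 6)), Irr U T → Mn U T →
  NoPair5 T → NoCov T → NoComp T

theorem XCov_of_XB (h : XB) : XCov := fun U T h1 h2 _ => h U T h1 h2

theorem NoCompCov_of_NoCompB (h : NoCompB) : NoCompCov := fun U T h1 h2 h3 _ => h U T h1 h2 h3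

end Vale.Agent.P032.Six

namespace Vale.Agent.P032.H154

open Vale.Agent.P032.Six

/-- no split points -/
def NoSplit (T : ℂ → Set (Fin 6)) : Prop :=
  ∀ z v q, dist v z = 1 → dist q z = 1 → (T z).ncard = 4 → (T v).ncard = 3 → (T q).ncard = 3 →
    ¬ T z ⊆ T v ∪ T q

/-- block X without split points and without covering pairs -/
def XSplit : Prop := ∀ (U : Fin 6 → Set ℂ) (T : ℂ → Set (Fin 6)), DF U T → NoSplit T → NoCov T →
  False

theorem NoSplit.noComp {T : ℂ → Set (Fin 6)} (h : NoSplit T) : NoComp T := by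
  intro z h4 v q hv hq hv3 hq3
  have h1 : (T q).ncard = 3 := by
    have h2 := Set.ncard_add_ncard_compl (T v)
    rw [← hq3] at h2
    simp only [Nat.card_eq_fintype_card, Fintype.card_fin] at h2
    omega
  refine absurd ?_ (h z v q hv hq h4 hv3 h1)
  rw [hq3, union_compl_self]
  exact subset_univ _

/-- the unit distance graph on the points with at least four colours has degree at most two -/
def NoThree (T : ℂ → Set (Fin 6)) : Prop :=
  ∀ z y1 y2 y3, 4 ≤ (T z).ncard → dist y1 z = 1 → dist y2 z = 1 → dist y3 z = 1 →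
    4 ≤ (T y1).ncard → 4 ≤ (T y2).ncard → 4 ≤ (T y3).ncard → y1 = y2 ∨ y1 = y3 ∨ y2 = y3

/-- block X without split points and with degree at most two -/
def XDeg : Prop := ∀ (U : Fin 6 → Set ℂ) (T : ℂ → Set (Fin 6)), DF U T → NoSplit T →
  NoThree T → False

end Vale.Agent.P032.H154

namespace Vale.Agent.P032.Six

open Vale.Agent.P032.H154

/-- block X, degree at most two -/
def XDegC : Prop := ∀ (U : Fin 6 → Set ℂ) (T : ℂ → Set (Fin 6)), DF U T → NoComp T →
  NoThree T → False

theorem XDegC.xDeg (h : XDegC) : XDeg := fun U T h1 h2 h3 => h U T h1 h2.noComp h3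

theorem XDegC_of_XB (h : XB) : XDegC := fun U T h1 h2 _ => h U T h1 h2

end Vale.Agent.P032.Six
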