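import Vale.Agent.P032.H416.XTop3

/-!
# P032, block X: the degree theorem

`XLinksDeg` : `DF U T → NoSplit T → NoThree T → QIW T NoInv`.
`xDeg_of : XPureT → XLinksDeg → XDeg`.
-/

open Set Filter Topology Metric

noncomputable section

namespace Vale.Agent.P032.Six

open Vale.Agent.P032.H961 Vale.Agent.P032.H154

/-- **block X-A** without split points, degree at most two -/
def XLinksDeg : Prop :=
  ∀ (U : Fin 6 → Set ℂ) (T : ℂ → Set (Fin 6)), DF U T → NoSplit T → NoThree T → QIW T NoInv

theorem noThree_pure {U : Fin 6 → Set ℂ} {T : ℂ → Set (Fin 6)} (h : Irr U T) (hS : NoThree T) :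
    NoThree (pureT U T) := by
  intro z y1 y2 y3 hz d1 d2 d3 h1 h2 h3
  rw [(pureT_card h (x := z) (by omega)).2] at hz
  rw [(pureT_card h (x := y1) (by omega)).2] at h1
  rw [(pureT_card h (x := y2) (by omega)).2] at h2
  rw [(pureT_card h (x := y3) (by omega)).2] at h3
  exact hS z y1 y2 y3 hz d1 d2 d3 h1 h2 h3

theorem tilePure_pure {U : Fin 6 → Set ℂ} {T : ℂ → Set (Fin 6)} (h : DF U T) :
    TilePure U (pureT U T) := fun _ n V α β O P _ hx =>
  pureT_of h.irr ⟨n, V, α, β, O, isT_of_pure h P, rfl⟩ hx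

/-- **the degree block** from the pure world and the links -/
theorem xDeg_of (P : XPureT) (A : XLinksDeg) : XDeg := fun U T h hS hT => by
  have h' := df_pure h
  have hN' := noComp_pure h.irr hS.noComp
  obtain ⟨z, a, b, c, d, hD⟩ := h'.exists_dpt
  exact P U _ h' hN' (tilePure_pure h)
    (A U _ h' (noSplit_pure h.irr hS) (noThree_pure h.irr hT)) z a b c d hD

/-- **block X-A**, degree at most two -/
def XLinksDegC : Prop :=
  ∀ (U : Fin 6 → Set ℂ) (T : ℂ → Set (Fin 6)), DF U T → NoComp T → NoThree T → QIW T NoInv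

/-- from the pure world and the links -/
theorem xDegC_of (P : XPureT) (A : XLinksDegC) : XDegC := fun U T h hN hT => by
  have h' := df_pure h
  have hN' := noComp_pure h.irr hN
  obtain ⟨z, a, b, c, d, hD⟩ := h'.exists_dpt
  exact P U _ h' hN' (tilePure_pure h) (A U _ h' hN' (noThree_pure h.irr hT)) z a b c d hD

end Vale.Agent.P032.Six
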