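import Vale.Agent.P032.H416.XTop4
import Vale.Agent.P032.H758.XFacT
import Vale.Agent.P032.H800.XDegTop

/-!
# P032: the degree theorem from its last two rows

`XStayEnd (fun _ => NoInv)` : the ends of the zones (974); `RowD2` : the ends of an arc of a pair
without plain ends are not harmless (802).
-/

open Set Filter Topology Metric
open Vale.Agent.P032.H154

noncomputable section

namespace Vale.Agent.P032.Six

/-- the pure world of quasi-full points, from the row of the ends -/
theorem xPureT_of_ends (HS : XStayEnd fun _ => NoInv) : XPureT := xPureT_of xFac HS

/-- the degree theorem from the last two rows -/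
theorem xDeg_of_rows (HS : XStayEnd fun _ => NoInv) (hD : Vale.Agent.P032.H800.RowD2) : XDeg :=
  xDeg_of (xPureT_of_ends HS) (Vale.Agent.P032.H800.xLinksDeg_of hD)

end Vale.Agent.P032.Six
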