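import Vale.Agent.P032.H416.XDeg0
import Vale.Agent.P032.H974.StayEnd

/-!
# P032: the degree theorem from the tips (`TipI`, 780) and the row `RowD2` (802)
-/

open Set Filter Topology Metric

noncomputable section

namespace Vale.Agent.P032.Six

open Vale.Agent.P032.H961 Vale.Agent.P032.H154

/-- the tips of the tiles -/
def XTip : Prop :=
  ∀ (U : Fin 6 → Set ℂ) (T : ℂ → Set (Fin 6)), DF U T → NoComp T → TilePure U T →
  QIW T NoInv → ∀ f, GaugeI758 T NoInv f → FacAll U T NoInv f → StayAll T NoInv → TipI U T f

/-- the end of the all-STAY chains, from the tips -/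
theorem xStayEnd_of_tip (H : XTip) : XStayEnd fun _ => NoInv :=
  fun U T h hN hp hw f G FA SA _ _ _ C => stayEnd974 h hN hp hw G FA SA (H U T h hN hp hw f G FA SA) C

/-- the degree theorem from the last two rows -/
theorem xDeg_of_tip (H : XTip) (hD : Vale.Agent.P032.H800.RowD2) : XDeg :=
  xDeg_of_rows (xStayEnd_of_tip H) hD

end Vale.Agent.P032.Six
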