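import Vale.Agent.P032.H416.XDeg1
import Vale.Agent.P032.H961.DH3
import Vale.Agent.P032.H974.TipGlue

/-!
# P032: the degree theorem from the odd rings at the tips (`RingV`, 974)

`xLinksDeg : XLinksDeg` (800, 961).
-/

open Set Filter Topology Metric

noncomputable section

namespace Vale.Agent.P032.Six

open Vale.Agent.P032.H961 Vale.Agent.P032.H154

/-- **block X-A without split points, degree at most two** -/
theorem xLinksDeg : XLinksDeg := Vale.Agent.P032.H800.xLinksDeg_of Vale.Agent.P032.H961.rowD2

/-- odd rings at the tips of the tiles -/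
def XRing : Prop :=
  ∀ (U : Fin 6 → Set ℂ) (T : ℂ → Set (Fin 6)), DF U T → NoComp T → TilePure U T →
  QIW T NoInv → ∀ f, GaugeI758 T NoInv f → FacAll U T NoInv f → StayAll T NoInv → RingV U T f

theorem xTip_of_ring (H : XRing) : XTip :=
  fun U T h hN hp hw f G FA SA => tipI_of974 h hN hw G SA (H U T h hN hp hw f G FA SA)

/-- the pure world, from the rings -/
theorem xPureT_of_ring (H : XRing) : XPureT := xPureT_of_ends (xStayEnd_of_tip (xTip_of_ring H))

/-- the degree theorem from the rings -/
theorem xDeg_of_ring (H : XRing) : XDeg := xDeg_of (xPureT_of_ring H) xLinksDeg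

end Vale.Agent.P032.Six
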