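import Vale.Agent.P032.H416.XDeg2
import Vale.Agent.P032.H780.TipF

/-!
# P032: the degree theorem from the record at the full points (`FullW780`)
-/

open Set Filter Topology Metric

noncomputable section

namespace Vale.Agent.P032.Six

open Vale.Agent.P032.H961 Vale.Agent.P032.H154

/-- the record at the full points -/
def XFull : Prop :=
  ∀ (U : Fin 6 → Set ℂ) (T : ℂ → Set (Fin 6)), DF U T → NoComp T → TilePure U T →
  QIW T NoInv → ∀ f, GaugeI758 T NoInv f → FacAll U T NoInv f → StayAll T NoInv → FullW780 U T f

theorem xRing_of_full (H : XFull) : XRing :=
  fun U T h hN hp hw f G FA SA => ringV_of780 h hw G SA (H U T h hN hp hw f G FA SA)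

/-- the pure world, from the record at the full points -/
theorem xPureT_of_full (H : XFull) : XPureT := xPureT_of_ring (xRing_of_full H)

/-- the degree theorem from the record at the full points -/
theorem xDeg_of_full (H : XFull) : XDeg := xDeg_of_ring (xRing_of_full H)

end Vale.Agent.P032.Six
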