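import Vale.Agent.P032.H416.XDeg2
import Vale.Agent.P032.H961.WDof

/-!
# P032: the degree theorem, second form (L1+), from the row of the M vertices

`RowM` (98): in a frame `DF` with `NoComp` and `NoThree` every two-pair point has a pair without plain
ends.
-/

open Set Filter Topology Metric

noncomputable section

namespace Vale.Agent.P032.Six

open Vale.Agent.P032.H961 Vale.Agent.P032.H154 Vale.Agent.P032.H383

/-- **row M** (98) -/
def RowM : Prop := ∀ (U : Fin 6 → Set ℂ) (T : ℂ → Set (Fin 6)), DF U T → NoComp T → NoThree T →
  ∀ {V : ℂ} {a b c d : Fin 6}, DPt T V a b c d → Pf T V a b ∨ Pf T V c d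

/-- the links from row M -/
theorem xLinksDegC_of_rowM (hM : RowM) : XLinksDegC :=
  fun U T h hN h3 => qiw_of961 h (fun hD => hM U T h hN h3 hD) h3

/-- **the degree theorem, second form**, from the rings and row M -/
theorem xDegC_of_rowM (H : XRing) (hM : RowM) : XDegC :=
  xDegC_of (xPureT_of_ring H) (xLinksDegC_of_rowM hM)

end Vale.Agent.P032.Six
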