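import Vale.Agent.P032.H416.XDegC1
import Vale.Agent.P032.H353.Corner2

/-!
# P032: the degree theorem, second form, from the rows T and HA of 98
-/

open Set Filter Topology Metric

noncomputable section

namespace Vale.Agent.P032.Six

open Vale.Agent.P032.H961 Vale.Agent.P032.H154 Vale.Agent.P032.H383

/-- **the degree theorem, second form**, from the rows T and HA of 98 -/
theorem xDegC_of_TH (hT : H98.RowTri98) (hHA : H98.RowHarm98) : XDegC :=
  xDegC_of_rows hT hHA (H353.rowH353 hT)

end Vale.Agent.P032.Six
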