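import Vale.Agent.P032.H416.XDegC1
import Vale.Agent.P032.H492.RowMCTop

/-!
# P032: the degree theorem, second form

`xDegC : XDegC` : there is no frame `DF` without complementary palettes in which every point with at
least four colours has at most two such points on its unit circle.
-/

open Set Filter Topology Metric

noncomputable section

namespace Vale.Agent.P032.Six

open Vale.Agent.P032.H961 Vale.Agent.P032.H154 Vale.Agent.P032.H383

/-- **the degree theorem, second form** -/
theorem xDegC : XDegC := xDegC_of_rowMC Vale.Agent.P032.H492.rowMC492

end Vale.Agent.P032.Six
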