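import Vale.Agent.P032.H416.XTop2
import Vale.Agent.P032.H758.Pure

/-!
# P032, block X: the pure world from its facts and the end of the all-STAY chains

`XFac Inv` : the parity and zero rows along every chain (rows of 353, 295, 383, 678, 961).
`XStayEnd Inv` : no all-STAY chain (rows of 974, 492, 780, 484, 553, 538).
`xPureTI_of : XFac Inv → XStayEnd Inv → XPureTI Inv`.
-/

open Set Filter Topology Metric

noncomputable section

namespace Vale.Agent.P032.Six

open Vale.Agent.P032.S5 Vale.Agent.P032.Carr Vale.Agent.P032.H961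

variable {U : Fin 6 → Set ℂ} {T : ℂ → Set (Fin 6)}

/-- the facts along the chains of a world -/
def FacAll (U : Fin 6 → Set ℂ) (T : ℂ → Set (Fin 6)) (Inv : ℂ → ℂ → Prop) (f : ℂ → Set (Fin 6)) :
    Prop := ∀ V l name, ChI nxR802 T Inv V l name → Fac758 U T f V name

/-- all chains of the world are all-STAY, new colour the letter not dropped -/
def StayAll (T : ℂ → Set (Fin 6)) (Inv : ℂ → ℂ → Prop) : Prop :=
  ∀ V l name, ChI nxR802 T Inv V l name → ∀ j, l j = 2

/-- the facts along the chains -/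
def XFac (Inv : (ℂ → Set (Fin 6)) → ℂ → ℂ → Prop) : Prop :=
  ∀ (U : Fin 6 → Set ℂ) (T : ℂ → Set (Fin 6)), DF U T → NoComp T → QIW T (Inv T) →
  ∀ f, GaugeI758 T (Inv T) f → FacAll U T (Inv T) f

/-- no all-STAY chains -/
def XStayEnd (Inv : (ℂ → Set (Fin 6)) → ℂ → ℂ → Prop) : Prop :=
  ∀ (U : Fin 6 → Set ℂ) (T : ℂ → Set (Fin 6)), DF U T → NoComp T → TilePure U T →
  QIW T (Inv T) → ∀ f, GaugeI758 T (Inv T) f → FacAll U T (Inv T) f → StayAll T (Inv T) →
  ∀ V l name, ¬ ChI nxR802 T (Inv T) V l name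

theorem DF.fin416' (h : DF U T) (R : ℝ) :
    ({z | ∃ a b c d, DPt T z a b c d} ∩ closedBall 0 R).Finite := by
  refine (h.fin 0 R).subset ?_
  rintro z ⟨h1, h2⟩
  exact ⟨mem_closedBall.1 h2, h1⟩

/-- the chains are all-STAY -/
theorem stayAll_of {Inv : ℂ → ℂ → Prop} {f : ℂ → Set (Fin 6)} (h : DF U T) (hw : QIW T Inv)
    (G : GaugeI758 T Inv f) (F : FacAll U T Inv f) : StayAll T Inv := fun V l name hC => by
  rcases (hC.chn758 h.irr hw G).pure758 h G.ch (F V l name hC) with h1 | h1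
  · exact h1
  · exact (hC.no_switchR802 h.irr hw (fun j => Or.inr (Or.inr (h1 j))) h.fin416').elim

/-- **the pure world** -/
theorem xPureTI_of {Inv : (ℂ → Set (Fin 6)) → ℂ → ℂ → Prop} (HF : XFac Inv) (HS : XStayEnd Inv) :
    XPureTI Inv := fun U T h hN hp hw V₀ a b c d hD => by
  obtain ⟨f, G⟩ := exists_gaugeI758 h.irr hw
  have F := HF U T h hN hw f G
  obtain ⟨V, l, name, hC, -⟩ := exists_chIR hw hD
  exact HS U T h hN hp hw f G F (stayAll_of h hw G F) V l name hC

/-- **the pure world**, no invisible points -/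
theorem xPureT_of (HF : XFac fun _ => NoInv) (HS : XStayEnd fun _ => NoInv) : XPureT :=
  xPureTI_of HF HS

end Vale.Agent.P032.Six
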