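import Vale.Agent.P032.H416.XDef0
import Vale.Agent.P032.H961.QI
import Vale.Agent.P032.S5.H11.DiscD

/-!
# P032, block X: the two halves

`XPure` : in a frame with at most four colours, locally finite two-pair points and no complementary
plain ends, the world in which every two-pair point is quasi full (`QIW`, no invisible points) has
no two-pair point.
`XLinks` : every such frame is such a world.
`xB_of : XPure → XLinks → XB`.
-/

open Set Filter Topology Metric

noncomputable section

namespace Vale.Agent.P032.Six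

open Vale.Agent.P032.H961

/-- no invisible points -/
def NoInv : ℂ → ℂ → Prop := fun _ _ => False

/-- **block X, pure world** -/
def XPure : Prop := ∀ (U : Fin 6 → Set ℂ) (T : ℂ → Set (Fin 6)), DF U T → NoComp T →
  QIW T NoInv → ∀ V a b c d, ¬ DPt T V a b c d

/-- **block X-A, the list of links** -/
def XLinks : Prop := ∀ (U : Fin 6 → Set ℂ) (T : ℂ → Set (Fin 6)), DF U T → NoComp T →
  QIW T NoInv

/-- the same with invisible points -/
def XPureI (Inv : (ℂ → Set (Fin 6)) → ℂ → ℂ → Prop) : Prop :=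
  ∀ (U : Fin 6 → Set ℂ) (T : ℂ → Set (Fin 6)), DF U T → NoComp T →
  QIW T (Inv T) → ∀ V a b c d, ¬ DPt T V a b c d

/-- the same with invisible points -/
def XLinksI (Inv : (ℂ → Set (Fin 6)) → ℂ → ℂ → Prop) : Prop :=
  ∀ (U : Fin 6 → Set ℂ) (T : ℂ → Set (Fin 6)), DF U T → NoComp T → QIW T (Inv T)

variable {U : Fin 6 → Set ℂ} {T : ℂ → Set (Fin 6)}

/-- a frame `DF` has a two-pair point -/
theorem DF.exists_dpt (h : DF U T) : ∃ z a b c d, DPt T z a b c d := by
  obtain ⟨z, -, a, b, c, d, hD⟩ := h.irr.exists_D_disc h.mn 0 fun z _ => h.le4 z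
  exact ⟨z, a, b, c, d, hD⟩

/-- **block X** from its two halves -/
theorem xB_of (P : XPure) (A : XLinks) : XB := fun U T h hN => by
  obtain ⟨z, a, b, c, d, hD⟩ := h.exists_dpt
  exact P U T h hN (A U T h hN) z a b c d hD

/-- the same with invisible points -/
theorem xB_ofI {Inv : (ℂ → Set (Fin 6)) → ℂ → ℂ → Prop} (P : XPureI Inv) (A : XLinksI Inv) :
    XB := fun U T h hN => by
  obtain ⟨z, a, b, c, d, hD⟩ := h.exists_dpt
  exact P U T h hN (A U T h hN) z a b c d hD

/-! ### without covering pairs -/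

/-- **block X-A without covering pairs** -/
def XLinksCov : Prop := ∀ (U : Fin 6 → Set ℂ) (T : ℂ → Set (Fin 6)), DF U T → NoComp T →
  NoCov T → QIW T NoInv

/-- the same with invisible points -/
def XLinksCovI (Inv : (ℂ → Set (Fin 6)) → ℂ → ℂ → Prop) : Prop :=
  ∀ (U : Fin 6 → Set ℂ) (T : ℂ → Set (Fin 6)), DF U T → NoComp T → NoCov T → QIW T (Inv T)

/-- block X without covering pairs -/
theorem xCov_of (P : XPure) (A : XLinksCov) : XCov := fun U T h hN hC => by
  obtain ⟨z, a, b, c, d, hD⟩ := h.exists_dpt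
  exact P U T h hN (A U T h hN hC) z a b c d hD

/-- the same with invisible points -/
theorem xCov_ofI {Inv : (ℂ → Set (Fin 6)) → ℂ → ℂ → Prop} (P : XPureI Inv) (A : XLinksCovI Inv) :
    XCov := fun U T h hN hC => by
  obtain ⟨z, a, b, c, d, hD⟩ := h.exists_dpt
  exact P U T h hN (A U T h hN hC) z a b c d hD

end Vale.Agent.P032.Six
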