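import Vale.Agent.P032.H416.XTop
import Vale.Agent.P032.H169.Pure

/-!
# P032, block X: the two halves, with pure tiles

`TilePure U T` : in the interior of a tile (closed polygon of an all-STAY chain) of colour `g` the
palette is `{g}`.  `XPureT` : as `XPure`, with the hypothesis `TilePure U T`.
`xB_ofT : XPureT → XLinks → XB`, `xCov_ofT : XPureT → XLinksCov → XCov`.
-/

open Set Filter Topology Metric

noncomputable section

namespace Vale.Agent.P032.Six

open Vale.Agent.P032.H961 Vale.Agent.P032.H484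

/-- the tiles are pure -/
def TilePure (U : Fin 6 → Set ℂ) (T : ℂ → Set (Fin 6)) : Prop :=
  ∀ g n V α β O, PgI U T g n V α β O → ∀ x ∈ interior (Tl V), T x = {g}

/-- **block X, pure world**, pure tiles -/
def XPureT : Prop := ∀ (U : Fin 6 → Set ℂ) (T : ℂ → Set (Fin 6)), DF U T → NoComp T →
  TilePure U T → QIW T NoInv → ∀ V a b c d, ¬ DPt T V a b c d

/-- **block X, pure world**, pure tiles, with invisible points -/
def XPureTI (Inv : (ℂ → Set (Fin 6)) → ℂ → ℂ → Prop) : Prop :=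
  ∀ (U : Fin 6 → Set ℂ) (T : ℂ → Set (Fin 6)), DF U T → NoComp T →
  TilePure U T → QIW T (Inv T) → ∀ V a b c d, ¬ DPt T V a b c d

variable {U : Fin 6 → Set ℂ} {T : ℂ → Set (Fin 6)}

theorem noCov_pure (h : Irr U T) (hC : NoCov T) : NoCov (pureT U T) := by
  intro z y hzy hz hy
  have h1 := (pureT_card h (x := z) (by omega)).2
  have h2 := (pureT_card h (x := y) (by omega)).2
  rw [h1] at hz ⊢
  rw [h2] at hy ⊢
  exact hC z y hzy hz hy

/-- pure tiles without loss of generality -/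
theorem exists_tilePure (h : DF U T) (hN : NoComp T) : ∃ T', DF U T' ∧ NoComp T' ∧
    TilePure U T' ∧ (∀ z a b c d, DPt T z a b c d ↔ DPt T' z a b c d) ∧
    (NoCov T → NoCov T') := by
  refine ⟨pureT U T, df_pure h, noComp_pure h.irr hN, fun g n V α β O P x hx => ?_,
    fun z a b c d => ⟨dpt_pure h.irr, dpt_of_pure h.irr⟩, noCov_pure h.irr⟩
  exact pureT_of h.irr ⟨n, V, α, β, O, isT_of_pure h P, rfl⟩ hx

theorem xB_ofT (P : XPureT) (A : XLinks) : XB := fun U T h hN => by
  obtain ⟨T', h', hN', hp, -, -⟩ := exists_tilePure h hN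
  obtain ⟨z, a, b, c, d, hD⟩ := h'.exists_dpt
  exact P U T' h' hN' hp (A U T' h' hN') z a b c d hD

theorem xB_ofTI {Inv : (ℂ → Set (Fin 6)) → ℂ → ℂ → Prop} (P : XPureTI Inv) (A : XLinksI Inv) :
    XB := fun U T h hN => by
  obtain ⟨T', h', hN', hp, -, -⟩ := exists_tilePure h hN
  obtain ⟨z, a, b, c, d, hD⟩ := h'.exists_dpt
  exact P U T' h' hN' hp (A U T' h' hN') z a b c d hD

theorem xCov_ofT (P : XPureT) (A : XLinksCov) : XCov := fun U T h hN hC => by
  obtain ⟨T', h', hN', hp, -, hC'⟩ := exists_tilePure h hN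
  obtain ⟨z, a, b, c, d, hD⟩ := h'.exists_dpt
  exact P U T' h' hN' hp (A U T' h' hN' (hC' hC)) z a b c d hD

theorem xCov_ofTI {Inv : (ℂ → Set (Fin 6)) → ℂ → ℂ → Prop} (P : XPureTI Inv)
    (A : XLinksCovI Inv) : XCov := fun U T h hN hC => by
  obtain ⟨T', h', hN', hp, -, hC'⟩ := exists_tilePure h hN
  obtain ⟨z, a, b, c, d, hD⟩ := h'.exists_dpt
  exact P U T' h' hN' hp (A U T' h' hN' (hC' hC)) z a b c d hD

end Vale.Agent.P032.Six
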