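import Vale.Agent.P032.H416.XTop2

/-!
# P032, block X: the world without split points and without covering pairs

`XLinksSplitI Inv` : `DF U T → NoSplit T → NoCov T → QIW T (Inv T)`.
`xSplit_ofTI : XPureTI Inv → XLinksSplitI Inv → XSplit`.
-/

open Set Filter Topology Metric

noncomputable section

namespace Vale.Agent.P032.Six

open Vale.Agent.P032.H961 Vale.Agent.P032.H154

/-- **block X-A** without split points and without covering pairs -/
def XLinksSplitI (Inv : (ℂ → Set (Fin 6)) → ℂ → ℂ → Prop) : Prop :=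
  ∀ (U : Fin 6 → Set ℂ) (T : ℂ → Set (Fin 6)), DF U T → NoSplit T → NoCov T → QIW T (Inv T)

theorem XLinksSplitI.of_cov {Inv : (ℂ → Set (Fin 6)) → ℂ → ℂ → Prop} (A : XLinksCovI Inv) :
    XLinksSplitI Inv := fun U T h hS hC => A U T h hS.noComp hC

theorem noSplit_pure {U : Fin 6 → Set ℂ} {T : ℂ → Set (Fin 6)} (h : Irr U T) (hS : NoSplit T) :
    NoSplit (pureT U T) := by
  intro z v q hv hq hz hv3 hq3
  have h1 := (pureT_card h (x := z) (by omega)).2
  have h2 := (pureT_card h (x := v) (by omega)).2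
  have h3 := (pureT_card h (x := q) (by omega)).2
  rw [h1] at hz ⊢
  rw [h2] at hv3 ⊢
  rw [h3] at hq3 ⊢
  exact hS z v q hv hq hz hv3 hq3

theorem xSplit_ofTI {Inv : (ℂ → Set (Fin 6)) → ℂ → ℂ → Prop} (P : XPureTI Inv)
    (A : XLinksSplitI Inv) : XSplit := fun U T h hS hC => by
  have h' := df_pure h
  have hN' := noComp_pure h.irr hS.noComp
  have hp : TilePure U (pureT U T) := fun g n V α β O P x hx =>
    pureT_of h.irr ⟨n, V, α, β, O, isT_of_pure h P, rfl⟩ hx
  obtain ⟨z, a, b, c, d, hD⟩ := h'.exists_dpt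
  exact P U _ h' hN' hp (A U _ h' (noSplit_pure h.irr hS) (noCov_pure h.irr hC)) z a b c d hD

end Vale.Agent.P032.Six
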